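import Mathlib.Analysis.InnerProductSpace.l2Space
import Mathlib.Analysis.VonNeumannAlgebra.Basic

/-! Group von Neumann algebras. -/

namespace Vale.Agent.P086

/-- The Hilbert space `ℓ²(G)`. -/
noncomputable abbrev l2 (G : Type*) := lp (fun _ : G => ℂ) 2

/-- The operator `ξ ↦ ξ ∘ e` on `ℓ²(G)`, for a permutation `e` of `G`. -/
noncomputable def shift {G : Type*} (e : G ≃ G) : l2 G →L[ℂ] l2 G :=
  LinearMap.mkContinuous
    { toFun := fun ξ => ⟨fun h => ξ (e h), memℓp_gen
        (e.summable_iff.mpr ((lp.memℓp ξ).summable (by simp)))⟩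
      map_add' := fun _ _ => rfl
      map_smul' := fun _ _ => rfl } 1 fun ξ => by
    rw [one_mul, lp.norm_eq_tsum_rpow (by simp), lp.norm_eq_tsum_rpow (by simp) ξ,
      ← e.tsum_eq fun h => ‖ξ h‖ ^ (2 : ENNReal).toReal]
    rfl

/-- The left regular representation: `(lam g ξ) h = ξ (g⁻¹ * h)`. -/
noncomputable def lam {G : Type*} [Group G] (g : G) : l2 G →L[ℂ] l2 G := shift (Equiv.mulLeft g⁻¹)

/-- The group von Neumann algebra `L(G) = λ(G)''`, as a star subalgebra of `B(ℓ²(G))`. -/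
noncomputable def groupVN (G : Type*) [Group G] : StarSubalgebra ℂ (l2 G →L[ℂ] l2 G) :=
  StarSubalgebra.centralizer ℂ
    (StarSubalgebra.centralizer ℂ (Set.range (lam (G := G))) : Set (l2 G →L[ℂ] l2 G))

end Vale.Agent.P086
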