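import Vale.Agent.P086.Iso
import Mathlib.SetTheory.Cardinal.Finite

/-! The group von Neumann algebra on a Hilbert space with a basis indexed by the group. -/

namespace Vale.Agent.P086

open StarSubalgebra

/-- Restriction of an isomorphism to subalgebras. -/
noncomputable def restr {A B : Type*} [CStarAlgebra A] [CStarAlgebra B] (Φ : A ≃⋆ₐ[ℂ] B)
    {M : StarSubalgebra ℂ A} {N : StarSubalgebra ℂ B} (h : ∀ x, x ∈ M ↔ Φ x ∈ N) : M ≃⋆ₐ[ℂ] N where
  toFun x := ⟨Φ x, (h _).mp x.2⟩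
  invFun y := ⟨Φ.symm y, (h _).mpr (by simp)⟩
  left_inv x := by simp
  right_inv x := by simp
  map_mul' x y := Subtype.ext (map_mul Φ _ _)
  map_add' x y := Subtype.ext (map_add Φ _ _)
  map_star' x := Subtype.ext (map_star Φ _)
  map_smul' c x := Subtype.ext (map_smul Φ _ _)

lemma exists_vN {G H : Type*} [Group G] [NormedAddCommGroup H] [InnerProductSpace ℂ H]
    [CompleteSpace H] (δ : HilbertBasis G ℂ H) : ∃ M : VonNeumannAlgebra H,
      (M : Set (H →L[ℂ] H)) =
        Set.centralizer (Set.centralizer {T | ∃ g, ∀ h, T (δ h) = δ (g * h)}) ∧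
      Nonempty (M.toStarSubalgebra ≃⋆ₐ[ℂ] groupVN G) := by
  classical
  set S : Set (H →L[ℂ] H) := {T | ∃ g, ∀ h, T (δ h) = δ (g * h)}
  set Φ := δ.repr.conjStarAlgEquiv
  have h1 : ∀ T, T ∈ S ↔ Φ T ∈ Set.range (lam (G := G)) := fun T => exists_congr fun g => by
    have : ∀ h, T (δ h) = δ (g * h) ↔ lam g (dl h) = Φ T (dl h) := fun h => by
      rw [LinearIsometryEquiv.conjStarAlgEquiv_apply_apply, lam_dl, dl, dl, δ.repr_symm_single,
        ← δ.repr_self, δ.repr.injective.eq_iff, eq_comm]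
    simp only [this]
    exact ⟨ext_dl, fun h _ => by rw [h]⟩
  have h2 : star S = S := Set.ext fun T => by
    rw [Set.mem_star, h1, h1, map_star]
    constructor
    · rintro ⟨g, hg⟩
      exact ⟨g⁻¹, by rw [← star_lam, hg, star_star]⟩
    · rintro ⟨g, hg⟩
      exact ⟨g⁻¹, by rw [← star_lam, hg]⟩
  have h3 : Set.range (lam (G := G)) = Φ '' S := Set.ext fun y => by
    obtain ⟨x, rfl⟩ := EquivLike.surjective Φ y
    rw [(EquivLike.injective Φ).mem_set_image, h1]
  refine ⟨vN S, ?_, ⟨restr Φ fun x => ?_⟩⟩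
  · change ((centralizer ℂ (centralizer ℂ S : Set (H →L[ℂ] H)) : StarSubalgebra ℂ _) :
      Set (H →L[ℂ] H)) = _
    simp [h2, Set.star_centralizer]
  · rw [groupVN, h3, ← centralizer_map, ← SetLike.mem_coe, ← SetLike.mem_coe (p := centralizer _ _),
      ← centralizer_map, (EquivLike.injective Φ).mem_set_image]
    rfl

lemma iso_card {ι : Type} [Countable ι] (h : 3 ≤ ENat.card ι) :
    Nonempty (groupVN (FreeGroup ι) ≃⋆ₐ[ℂ] groupVN (FreeGroup (Fin 3))) := by
  have h3 : 3 ≤ Cardinal.mk ι := by simpa [ENat.card] using h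
  obtain ⟨x, z, hxz⟩ := Cardinal.two_le_iff.mp (le_trans (by norm_num) h3)
  obtain ⟨v, h1, h2⟩ := Cardinal.exists_ne_ne_of_three_le h3 x z
  exact iso_three hxz.symm h1 h2

end Vale.Agent.P086
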