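import Vale.Agent.P085.Factor
import Mathlib.Algebra.MonoidAlgebra.Basic
import Mathlib.Algebra.MonoidAlgebra.Module
import Mathlib.Analysis.SpecialFunctions.Exponential

/-! Flows of trace preserving derivations of group algebras. -/

namespace Vale.Agent.P086

open Vale.Agent.P085 Filter Finset
open scoped Topology Nat

variable {G : Type*} [Group G] {A : Type*} [CStarAlgebra A] {T : Tr A}

/-- The real group algebra. -/
abbrev RG (G : Type*) := MonoidAlgebra ℝ G

/-- Group elements in the group algebra. -/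
noncomputable abbrev gp (g : G) : RG G := MonoidAlgebra.of ℝ G g

/-- Extension of a unitary representation. -/
noncomputable def pi (θ : G →* unitary A) : RG G →ₐ[ℝ] A :=
  MonoidAlgebra.lift ℝ A G ((unitary A).subtype.comp θ)

@[simp] lemma pi_gp (θ : G →* unitary A) (g : G) : pi θ (gp g) = θ g := by simp [pi]

/-- The involution. -/
noncomputable def st : RG G →ₗ[ℝ] RG G := MonoidAlgebra.mapDomainLinearMap ℝ ℝ fun g => g⁻¹

@[simp] lemma st_gp (g : G) : st (gp g) = gp g⁻¹ := by simp [st]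

lemma rg_ind {p : RG G → Prop} (f : RG G) (h1 : ∀ g, p (gp g)) (h2 : ∀ f g, p f → p g → p (f + g))
    (h3 : ∀ (r : ℝ) f, p f → p (r • f)) : p f := MonoidAlgebra.induction_on f h1 h2 h3

lemma pi_st (θ : G →* unitary A) (f : RG G) : pi θ (st f) = star (pi θ f) := by
  induction f using rg_ind with
  | h1 g => rw [st_gp, pi_gp, pi_gp, map_inv]; rfl
  | h2 f g hf hg => simp [hf, hg]
  | h3 r f hf => simp [hf]

lemma st_mul (f g : RG G) : st (f * g) = st g * st f := by
  induction f using rg_ind with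
  | h1 a =>
    induction g using rg_ind with
    | h1 b => rw [← map_mul, st_gp, st_gp, st_gp, ← map_mul, mul_inv_rev]
    | h2 f g hf hg => simp only [mul_add, add_mul, map_add, hf, hg]
    | h3 r f hf => simp only [mul_smul_comm, smul_mul_assoc, map_smul, hf]
  | h2 f f' hf hg => simp only [mul_add, add_mul, map_add, hf, hg]
  | h3 r f hf => simp only [mul_smul_comm, smul_mul_assoc, map_smul, hf]

/-- The representation preserves the canonical trace. -/
def IsTr (T : Tr A) (θ : G →* unitary A) : Prop := ∀ g, g ≠ 1 → T.τ (θ g) = 0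

lemma IsTr.τ_pi {θ : G →* unitary A} (h : IsTr T θ) (f : RG G) :
    T.τ (pi θ f) = (f.coeff 1 : ℝ) := by
  induction f using rg_ind with
  | h1 g =>
    rcases eq_or_ne g 1 with rfl | hg
    · simp [T.one, ← MonoidAlgebra.one_def]
    · rw [pi_gp, h g hg]; simp [Finsupp.single_eq_of_ne' hg]
  | h2 f g hf hg => simp [hf, hg]
  | h3 r f hf => rw [map_smul, ← Complex.coe_smul, map_smul, hf]; simp

lemma IsTr.n2_eq {θ θ' : G →* unitary A} (h : IsTr T θ) (h' : IsTr T θ') (f : RG G) :
    T.n2 (pi θ f) = T.n2 (pi θ' f) := by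
  rw [← sq_eq_sq₀ (T.n2_nonneg _) (T.n2_nonneg _), T.n2_sq, T.n2_sq, ← pi_st, ← pi_st, ← map_mul,
    ← map_mul, h.τ_pi, h'.τ_pi]

variable (G A) in
/-- Trace preserving derivations with analytic vectors. -/
structure Der where
  D : RG G →ₗ[ℝ] RG G
  mul : ∀ a b, D (a * b) = D a * b + a * D b
  st : ∀ a, D (st a) = st (D a)
  tr : ∀ a, (D a).coeff 1 = 0
  K : ℝ
  K_pos : 0 < K
  bd : ∀ f, ∃ C, ∀ (n : ℕ) (θ : G →* unitary A), ‖pi θ ((D ^ n) f)‖ ≤ C * K ^ n * n !

namespace Der

variable (d : Der G A)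

lemma one : d.D 1 = 0 := by simpa using d.mul 1 1

lemma pow_mul (a b : RG G) (n : ℕ) : (d.D ^ n) (a * b) =
    ∑ p ∈ antidiagonal n, n.choose p.1 • ((d.D ^ p.1) a * (d.D ^ p.2) b) := by
  induction n with
  | zero => simp
  | succ n ih =>
    rw [sum_antidiagonal_choose_succ_nsmul (fun i j => (d.D ^ i) a * (d.D ^ j) b) n]
    simp only [pow_succ', Module.End.mul_apply, ih, map_sum, map_nsmul, d.mul, smul_add,
      sum_add_distrib]
    rw [add_comm, add_right_inj]
    exact sum_congr rfl fun p hp => by rw [n.choose_symm_of_eq_add (mem_antidiagonal.1 hp).symm]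

lemma pow_st (a : RG G) (n : ℕ) : (d.D ^ n) (P086.st a) = P086.st ((d.D ^ n) a) := by
  induction n with
  | zero => simp
  | succ n ih => simp only [pow_succ', Module.End.mul_apply, ih, d.st]

/-- Terms of the exponential series. -/
noncomputable def tm (θ : G →* unitary A) (h : ℝ) (f : RG G) (n : ℕ) : A :=
  (h ^ n / n !) • pi θ ((d.D ^ n) f)

/-- The constants. -/
noncomputable def C (f : RG G) : ℝ := (d.bd f).choose

lemma C_nonneg (f : RG G) : 0 ≤ d.C f := by
  simpa [C] using (norm_nonneg _).trans ((d.bd f).choose_spec 0 1)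

variable {θ : G →* unitary A} {h : ℝ}

lemma norm_tm (f : RG G) (n : ℕ) : ‖d.tm θ h f n‖ ≤ d.C f * (|h| * d.K) ^ n := by
  rw [tm, norm_smul, norm_div, norm_pow, Real.norm_eq_abs, Real.norm_natCast]
  refine (mul_le_mul_of_nonneg_left ((d.bd f).choose_spec n θ) (by positivity)).trans_eq ?_
  rw [C, mul_pow]
  field_simp

lemma summable_tm (hh : |h| * d.K ≤ 4⁻¹) (f : RG G) : Summable fun n => ‖d.tm θ h f n‖ :=
  .of_nonneg_of_le (fun _ => norm_nonneg _) (d.norm_tm f) ((summable_geometric_of_lt_one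
    (by have := d.K_pos; positivity) (by linarith)).mul_left _)

lemma tm_of_eq_zero {f : RG G} (hf : d.D f = 0) : ∑' n, d.tm θ h f n = pi θ f := by
  rw [tsum_eq_single 0]
  · simp [tm]
  · intro n hn
    obtain ⟨n, rfl⟩ := Nat.exists_eq_succ_of_ne_zero hn
    simp [tm, pow_succ, hf]

lemma tm_mul (hh : |h| * d.K ≤ 4⁻¹) (f g : RG G) :
    ∑' n, d.tm θ h (f * g) n = (∑' n, d.tm θ h f n) * ∑' n, d.tm θ h g n := by
  rw [tsum_mul_tsum_eq_tsum_sum_antidiagonal_of_summable_norm (d.summable_tm hh f)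
    (d.summable_tm hh g)]
  refine tsum_congr fun n => ?_
  simp only [tm, d.pow_mul, map_sum, map_nsmul, map_mul, smul_sum, smul_mul_smul_comm]
  refine sum_congr rfl fun p hp => ?_
  rw [← mem_antidiagonal.mp hp, ← Nat.cast_smul_eq_nsmul ℝ, smul_smul, Nat.cast_add_choose, pow_add]
  congr 1
  field_simp

lemma tm_st (f : RG G) : ∑' n, d.tm θ h (P086.st f) n = star (∑' n, d.tm θ h f n) := by
  simp [tsum_star, tm, d.pow_st, pi_st]

open Classical in
/-- One step of the flow. -/
noncomputable def step (h : ℝ) (θ : G →* unitary A) : G →* unitary A :=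
  if hh : |h| * d.K ≤ 4⁻¹ then
    { toFun := fun g => ⟨∑' n, d.tm θ h (gp g) n, by
        constructor <;> rw [← d.tm_st, ← d.tm_mul hh, st_gp, ← map_mul] <;>
          simp [-MonoidAlgebra.of_apply, d.tm_of_eq_zero d.one]⟩
      map_one' := Subtype.ext (by simp [-MonoidAlgebra.of_apply, d.tm_of_eq_zero d.one])
      map_mul' := fun a b => Subtype.ext (by simp [-MonoidAlgebra.of_apply, d.tm_mul hh]) }
  else θ

lemma hasSum_step (hh : |h| * d.K ≤ 4⁻¹) (f : RG G) :
    HasSum (d.tm θ h f) (pi (d.step h θ) f) := by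
  induction f using rg_ind with
  | h1 g => rw [pi_gp, step, dif_pos hh]; exact (d.summable_tm hh _).of_norm.hasSum
  | h2 f g hf hg => convert hf.add hg using 1 <;> simp [funext_iff, tm]
  | h3 r f hf => convert hf.const_smul r using 1 <;> simp [funext_iff, tm, smul_comm r]

lemma isTr_step (hh : |h| * d.K ≤ 4⁻¹) (hθ : IsTr T θ) : IsTr T (d.step h θ) := by
  intro g hg
  have h1 := (d.hasSum_step (θ := θ) hh (gp g)).mapL
    ((T.τ.mkContinuous 1 fun a => by simpa using T.norm_τ_le a).restrictScalars ℝ)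
  rw [pi_gp] at h1
  refine h1.unique ?_
  convert hasSum_zero with n
  rcases n with _ | n
  · simpa [-MonoidAlgebra.of_apply, tm] using hθ g hg
  · rw [tm, map_smul, pow_succ' d.D, Module.End.mul_apply]
    simp [hθ.τ_pi, d.tr]

lemma step_of_eq_zero (hh : |h| * d.K ≤ 4⁻¹) {f : RG G} (hf : d.D f = 0) :
    pi (d.step h θ) f = pi θ f := by
  rw [← (d.hasSum_step hh f).tsum_eq, d.tm_of_eq_zero hf]

lemma norm_step (hh : |h| * d.K ≤ 4⁻¹) (f : RG G) :
    ‖pi (d.step h θ) f - pi θ f - h • pi θ (d.D f)‖ ≤ 2 * d.C f * d.K ^ 2 * h ^ 2 := by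
  have h1 := (hasSum_nat_add_iff' 2).mpr (d.hasSum_step (θ := θ) hh f)
  have h0 : 0 ≤ |h| * d.K := by have := d.K_pos; positivity
  have h2 := (hasSum_geometric_of_lt_one h0 (by linarith)).mul_left (d.C f * (|h| * d.K) ^ 2)
  have h3 := h1.norm_le_of_bounded h2 fun n => (d.norm_tm f _).trans_eq (by ring)
  simp only [sum_range_succ, range_zero, sum_empty, tm] at h3
  rw [sub_sub]
  refine le_trans (by simpa using h3) ?_
  have : (1 - |h| * d.K)⁻¹ ≤ 2 := by rw [inv_le_comm₀ (by linarith) two_pos]; linarith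
  have := d.C_nonneg f
  calc _ ≤ d.C f * (|h| * d.K) ^ 2 * 2 := by gcongr
    _ = _ := by rw [mul_pow, sq_abs]; ring

lemma mem_of_step (hh : |h| * d.K ≤ 4⁻¹) {N : Submodule ℝ A} (hN : IsClosed (N : Set A))
    (hm : ∀ f, pi (d.step h θ) f ∈ N) (f : RG G) : pi θ f ∈ N := by
  let s : ℕ × ℕ → A := fun p => ((-h) ^ p.1 / p.1 !) • d.tm θ h ((d.D ^ p.1) f) p.2
  have e1 : ∀ p : ℕ × ℕ, s p = (((p.1 + p.2).choose p.1 * ((-1) ^ p.1 * 1 ^ p.2) : ℝ)) •
      d.tm θ h f (p.1 + p.2) := fun p => by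
    rw [Nat.cast_add_choose]
    simp only [s, tm, smul_smul, neg_pow h, add_comm p.1, pow_add, Module.End.mul_apply, one_pow]
    congr 1
    field_simp
  have h0 : 0 ≤ |h| * d.K := by have := d.K_pos; positivity
  have hg := summable_geometric_of_lt_one (r := 2 * (|h| * d.K)) (by positivity) (by linarith)
  have hs : Summable s := .of_norm_bounded ((hg.mul_of_nonneg hg (fun _ => by positivity)
    fun _ => by positivity).mul_left (d.C f)) fun p => by
      rw [e1, norm_smul, ← pow_add, mul_pow, mul_left_comm (d.C f)]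
      refine mul_le_mul ?_ (d.norm_tm f _) (norm_nonneg _) (by positivity)
      simpa using (Nat.cast_le (α := ℝ)).mpr (Nat.choose_le_two_pow (p.1 + p.2) p.1)
  have h1 := hs.hasSum.prod_fiberwise fun n =>
    (d.hasSum_step (θ := θ) hh ((d.D ^ n) f)).const_smul ((-h) ^ n / n !)
  have h2 := ((HasAntidiagonal.sigmaAntidiagonalEquivProd (A := ℕ)).hasSum_iff.mpr hs.hasSum).sigma
    fun n => hasSum_fintype _
  have h3 : HasSum (fun n : ℕ => ∑ p : antidiagonal n,
      (s ∘ HasAntidiagonal.sigmaAntidiagonalEquivProd) ⟨n, p⟩) (pi θ f) := by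
    have : ∀ n : ℕ, ∑ p : antidiagonal n, (s ∘ HasAntidiagonal.sigmaAntidiagonalEquivProd) ⟨n, p⟩ =
        ((-1 + 1 : ℝ) ^ n) • d.tm θ h f n := fun n => by
      rw [(Commute.all _ _).add_pow', sum_smul, ← sum_coe_sort (antidiagonal n)]
      refine sum_congr rfl fun p _ => ?_
      have := e1 p
      rw [mem_antidiagonal.mp p.2] at this
      rw [nsmul_eq_mul]
      exact this
    simp only [this]
    convert hasSum_single 0 _
    · simp [tm]
    · intro n hn
      simp [hn]
  rw [h3.unique h2]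
  exact hN.mem_of_tendsto h1 (.of_forall fun t => N.sum_mem fun n _ => N.smul_mem _ (hm _))

end Der

/-- A trace preserving representation that generates. -/
structure Bas (T : Tr A) (θ : G →* unitary A) : Prop where
  tr : IsTr T θ
  gen : ∀ N : StarSubalgebra ℂ A, T.Closed N → (∀ g, (θ g : A) ∈ N) → N = ⊤

lemma pi_mem {θ : G →* unitary A} {N : StarSubalgebra ℂ A} (h : ∀ g, (θ g : A) ∈ N) (f : RG G) :
    pi θ f ∈ N := by
  induction f using rg_ind with
  | h1 g => rw [pi_gp]; exact h g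
  | h2 f g hf hg => rw [map_add]; exact add_mem hf hg
  | h3 r f hf => rw [map_smul, ← Complex.coe_smul]; exact N.smul_mem hf _

lemma Der.bas_step (d : Der G A) {θ : G →* unitary A} {h : ℝ} (hh : |h| * d.K ≤ 4⁻¹)
    (hθ : Bas T θ) : Bas T (d.step h θ) :=
  ⟨d.isTr_step hh hθ.tr, fun N hN hm => hθ.gen N hN fun g => by
    simpa [-MonoidAlgebra.of_apply] using d.mem_of_step hh
      (N := N.toSubalgebra.toSubmodule.restrictScalars ℝ) hN.isClosed (pi_mem hm) (gp g)⟩

/-- The time one map, in `n` steps. -/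
noncomputable def Der.it (d : Der G A) (θ : G →* unitary A) (n : ℕ) : G →* unitary A :=
  (d.step (n : ℝ)⁻¹)^[n] θ

lemma Der.ev_small (d : Der G A) : ∀ᶠ n : ℕ in atTop, |(n : ℝ)⁻¹| * d.K ≤ 4⁻¹ :=
  (tendsto_inv_atTop_nhds_zero_nat.abs.mul_const d.K).eventually_le_const (by simp)

lemma Der.iter (d : Der G A) {θ : G →* unitary A} {h : ℝ} (hh : |h| * d.K ≤ 4⁻¹) (hθ : Bas T θ)
    (j : ℕ) : Bas T ((d.step h)^[j] θ) ∧
      ∀ f, d.D f = 0 → pi ((d.step h)^[j] θ) f = pi θ f := by
  induction j with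
  | zero => exact ⟨hθ, fun _ _ => rfl⟩
  | succ j ih =>
    rw [Function.iterate_succ_apply']
    exact ⟨d.bas_step hh ih.1, fun f hf => (d.step_of_eq_zero hh hf).trans (ih.2 f hf)⟩

open NormedSpace in
lemma Der.it_est (d : Der G A) {θ : G →* unitary A} (hθ : Bas T θ) {g : G} {β e : RG G}
    (hD : d.D (gp g) = (β + e) * gp g) (hβ : d.D β = 0) (hs : P086.st β = -β) {η : ℝ}
    (hη : 0 < η) : ∀ᶠ n : ℕ in atTop,
      T.n2 (d.it θ n g - exp (pi θ β) * θ g) ≤ T.n2 (pi θ e) + η := by
  let +nondep : NormedAlgebra ℚ A := .restrictScalars ℚ ℂ A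
  set B := pi θ β with hB
  have hB1 : star B = -B := by rw [hB, ← pi_st, hs, map_neg]
  have h0 := tendsto_inv_atTop_nhds_zero_nat (𝕜 := ℝ)
  have h1 := h0.eventually ((hasDerivAt_exp_smul_const (𝕂 := ℝ) B 0).isLittleO.def (half_pos hη))
  have h2 := (h0.const_mul (2 * d.C (gp g) * d.K ^ 2)).eventually_le_const
    (show _ < η / 2 by simpa using hη)
  filter_upwards [h1, h2, d.ev_small, eventually_gt_atTop 0] with n h1 h2 hh hn
  have hn' : (0 : ℝ) < n := by exact_mod_cast hn
  set h : ℝ := (n : ℝ)⁻¹ with hh'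
  have h3 : 0 < h := by positivity
  simp only [zero_smul, exp_zero, sub_zero, one_mul, Real.norm_of_nonneg h3.le] at h1
  have key : ∀ j : ℕ, T.n2 ((d.step h)^[j] θ g - exp ((j * h) • B) * θ g) ≤
      j * h * (T.n2 (pi θ e) + η) := fun j => by
    induction j with
    | zero => simp [T.n2_zero]
    | succ j ih =>
      rw [Function.iterate_succ_apply']
      obtain ⟨i1, i2⟩ := d.iter hh hθ j
      set θ' := (d.step h)^[j] θ
      have e1 := (T.n2_le_norm _).trans (d.norm_step (θ := θ') hh (gp g))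
      rw [hD, map_mul, map_add, i2 β hβ, pi_gp, pi_gp, ← hB] at e1
      have e2 : T.n2 (h • (pi θ' e * θ' g)) = h * T.n2 (pi θ e) := by
        rw [← Complex.coe_smul, T.n2_smul, T.n2_mul_unitary (θ' g).2, i1.tr.n2_eq hθ.tr,
          Complex.norm_real, Real.norm_of_nonneg h3.le]
      have e3 : T.n2 ((exp (h • B) - 1 - h • B) * θ' g) ≤ η / 2 * h := by
        rw [T.n2_mul_unitary (θ' g).2]; exact (T.n2_le_norm _).trans h1
      have e4 := T.n2_unitary_mul (exp_mem_unitary_of_mem_skewAdjoint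
        (x := h • B) (by rw [skewAdjoint.mem_iff, star_smul, hB1, star_trivial, smul_neg]))
        (θ' g - exp ((j * h) • B) * θ g)
      have e5 : d.step h θ' g - exp (((j + 1 : ℕ) * h) • B) * θ g =
          (d.step h θ' g - θ' g - h • ((B + pi θ' e) * θ' g)) + h • (pi θ' e * θ' g) -
            (exp (h • B) - 1 - h • B) * θ' g + exp (h • B) * (θ' g - exp ((j * h) • B) * θ g) := by
        rw [Nat.cast_succ, add_mul, one_mul, add_comm, add_smul,
          exp_add_of_commute ((Commute.refl B).smul_left _ |>.smul_right _)]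
        simp only [add_mul, sub_mul, mul_sub, smul_add, smul_mul_assoc, one_mul, mul_assoc]
        abel
      rw [e5]
      refine (T.n2_add_le _ _).trans ((add_le_add_left ((T.n2_sub_le _ _).trans
        (add_le_add_left (T.n2_add_le _ _) _)) _).trans ?_)
      rw [e2, e4]
      push_cast
      nlinarith [mul_le_mul_of_nonneg_right h2 h3.le]
  simpa [hh', hn'.ne', Der.it] using key n

end Vale.Agent.P086
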