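import Vale.Agent.P086.Flow
import Mathlib.Algebra.TrivSqZeroExt.Basic
import Mathlib.GroupTheory.FreeGroup.Reduce

/-! Derivations of the group algebra of a free group. -/

namespace Vale.Agent.P086

open Vale.Agent.P085 TrivSqZeroExt
open FreeGroup hiding map_mul map_one map_inv norm_mul_le
open scoped Nat

variable {ι : Type*} {A : Type*} [CStarAlgebra A]

lemma gp_mul {G : Type*} [Group G] (g h : G) : gp (g * h) = gp g * gp h := map_mul _ _ _

lemma gp_one {G : Type*} [Group G] : gp (1 : G) = 1 := map_one _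

lemma gp_mul_inv {G : Type*} [Group G] (g : G) : gp g * gp g⁻¹ = 1 := by
  rw [← map_mul, mul_inv_cancel, map_one]

lemma gp_inv_mul {G : Type*} [Group G] (g : G) : gp g⁻¹ * gp g = 1 := by
  rw [← map_mul, inv_mul_cancel, map_one]

variable (κ : ι → RG (FreeGroup ι))

/-- First order deformation of the generators. -/
noncomputable def du (i : ι) : (TrivSqZeroExt (RG (FreeGroup ι)) (RG (FreeGroup ι)))ˣ where
  val := inl (gp (of i)) + inr (κ i * gp (of i))
  inv := inl (gp (of i)⁻¹) - inr (gp (of i)⁻¹ * κ i)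
  val_inv := by
    ext1 <;> simp [-MonoidAlgebra.of_apply, gp_mul_inv, mul_assoc, ← mul_assoc (gp (of i))]
  inv_val := by ext1 <;> simp [-MonoidAlgebra.of_apply, gp_inv_mul, mul_assoc]

/-- First order deformation of the identity. -/
noncomputable def Phi : RG (FreeGroup ι) →ₐ[ℝ]
    TrivSqZeroExt (RG (FreeGroup ι)) (RG (FreeGroup ι)) :=
  MonoidAlgebra.lift ℝ _ _ ((Units.coeHom _).comp (FreeGroup.lift (du κ)))

lemma Phi_gp (g : FreeGroup ι) : Phi κ (gp g) = (FreeGroup.lift (du κ) g : _ˣ) := by simp [Phi]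

lemma fst_Phi (f : RG (FreeGroup ι)) : (Phi κ f).fst = f := by
  induction f using rg_ind with
  | h1 g =>
    induction g using FreeGroup.induction_on with
    | C1 => simp [-MonoidAlgebra.of_apply]
    | of i => simp [-MonoidAlgebra.of_apply, Phi_gp, du]
    | inv_of i _ => simp [-MonoidAlgebra.of_apply, Phi_gp, du]
    | mul a b ha hb => rw [gp_mul, map_mul, fst_mul, ha, hb]
  | h2 f g hf hg => simp [hf, hg]
  | h3 r f hf => simp [hf]

/-- The derivation. -/
noncomputable def DD : RG (FreeGroup ι) →ₗ[ℝ] RG (FreeGroup ι) :=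
  (sndHom _ _).restrictScalars ℝ ∘ₗ (Phi κ).toLinearMap

lemma DD_mul (a b : RG (FreeGroup ι)) : DD κ (a * b) = DD κ a * b + a * DD κ b := by
  simp [DD, fst_Phi, add_comm]

lemma DD_one : DD κ 1 = 0 := by simp [DD]

lemma DD_of (i : ι) : DD κ (gp (of i)) = κ i * gp (of i) := by
  simp [-MonoidAlgebra.of_apply, DD, Phi_gp, du]

lemma DD_inv (i : ι) : DD κ (gp (of i)⁻¹) = -(gp (of i)⁻¹ * κ i) := by
  simp [-MonoidAlgebra.of_apply, DD, Phi_gp, du]

lemma DD_st (hκ : ∀ i, st (κ i) = -κ i) (f : RG (FreeGroup ι)) : DD κ (st f) = st (DD κ f) := by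
  induction f using rg_ind with
  | h1 g =>
    induction g using FreeGroup.induction_on with
    | C1 => rw [st_gp, inv_one, gp_one, DD_one, map_zero]
    | of i => rw [st_gp, DD_inv, DD_of, st_mul, hκ, st_gp, mul_neg]
    | inv_of i _ => rw [st_gp, inv_inv, DD_inv, DD_of, map_neg, st_mul, hκ, st_gp, inv_inv, neg_mul,
        neg_neg]
    | mul a b ha hb =>
      rw [gp_mul, st_mul, DD_mul, DD_mul, ha, hb, map_add, st_mul, st_mul, add_comm]
  | h2 f g hf hg => simp [hf, hg]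
  | h3 r f hf => simp [hf]

lemma DD_zpow {y : FreeGroup ι} (hy : DD κ (gp y) = 0) (n : ℤ) : DD κ (gp (y ^ n)) = 0 := by
  have h1 : DD κ (gp y⁻¹) = 0 := by
    have := DD_mul κ (gp y) (gp y⁻¹)
    rw [gp_mul_inv, DD_one, hy, zero_mul, zero_add] at this
    rw [← one_mul (DD κ _), ← gp_inv_mul y, mul_assoc, ← this, mul_zero]
  induction n using Int.induction_on with
  | zero => rw [zpow_zero, gp_one, DD_one]
  | succ n ih => rw [zpow_add_one, gp_mul, DD_mul, ih, hy, zero_mul, mul_zero, add_zero]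
  | pred n ih => rw [zpow_sub_one, gp_mul, DD_mul, ih, h1, zero_mul, mul_zero, add_zero]

lemma conj_mem {G : Type*} [Group G] {S S' : Set G} {a : G} (h : ∀ g ∈ S, a * g * a⁻¹ ∈ S')
    {f : RG G} (hf : f ∈ MonoidAlgebra.supported ℝ ℝ S) :
    gp a * f * gp a⁻¹ ∈ MonoidAlgebra.supported ℝ ℝ S' := by
  rw [MonoidAlgebra.mem_supported'] at hf ⊢
  intro m hm
  simp only [MonoidAlgebra.of_apply, MonoidAlgebra.coeff_mul_single_apply,
    MonoidAlgebra.coeff_single_mul_apply, inv_inv, one_mul, mul_one]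
  exact hf _ fun h' => hm (by simpa [mul_assoc] using h _ h')

lemma DD_tr {y : FreeGroup ι} (hy : DD κ (gp y) = 0)
    (hκ : ∀ i, κ i ∈ MonoidAlgebra.supported ℝ ℝ {g | ∃ a, ∃ n : ℤ, g = a * y ^ n * a⁻¹})
    (f : RG (FreeGroup ι)) : (DD κ f).coeff 1 = 0 := by
  set S := {g : FreeGroup ι | ∃ a, ∃ n : ℤ, g = a * y ^ n * a⁻¹}
  have hS : ∀ a, ∀ g ∈ S, a * g * a⁻¹ ∈ S := by
    rintro a _ ⟨b, n, rfl⟩
    exact ⟨a * b, n, by group⟩
  have h1 : ∀ g, DD κ (gp g) * gp g⁻¹ ∈ MonoidAlgebra.supported ℝ ℝ S := fun g => by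
    induction g using FreeGroup.induction_on with
    | C1 => rw [gp_one, DD_one, zero_mul]; exact zero_mem _
    | of i => rw [DD_of, mul_assoc, gp_mul_inv, mul_one]; exact hκ i
    | inv_of i _ => rw [DD_inv, neg_mul]; exact neg_mem (conj_mem (hS _) (hκ i))
    | mul a b ha hb =>
      rw [gp_mul, DD_mul, mul_inv_rev, gp_mul, add_mul, mul_assoc, ← mul_assoc (gp b), gp_mul_inv,
        one_mul, mul_assoc, ← mul_assoc (DD κ (gp b)), ← mul_assoc]
      exact add_mem ha (conj_mem (hS _) hb)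
  have h2 : ∀ g h, (DD κ (gp (g * h))).coeff 1 = (DD κ (gp (h * g))).coeff 1 := fun g h => by
    rw [gp_mul, gp_mul, DD_mul, DD_mul]
    simp [add_comm]
  induction f using rg_ind with
  | h1 g =>
    by_cases hg : g⁻¹ ∈ S
    · obtain ⟨a, n, h⟩ := hg
      rw [show g = a * (y ^ (-n) * a⁻¹) by rw [← inv_inv g, h]; group, h2, inv_mul_cancel_right,
        DD_zpow κ hy]
      rfl
    · simpa using MonoidAlgebra.mem_supported'.mp (h1 g) _ hg
  | h2 f g hf hg => simp [hf, hg]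
  | h3 r f hf => simp [hf]

variable [DecidableEq ι]

variable (A) in
/-- Supported in the ball of radius `r`, with ℓ¹-norm at most `C`. -/
def Bd (r : ℕ) (C : ℝ) (f : RG (FreeGroup ι)) : Prop :=
  ∀ (ψ : RG (FreeGroup ι) →ₗ[ℝ] A) (B : ℝ), (∀ g, g.norm ≤ r → ‖ψ (gp g)‖ ≤ B) → ‖ψ f‖ ≤ C * B

lemma Bd.mono {r r' : ℕ} {C C' : ℝ} {f : RG (FreeGroup ι)} (h : Bd A r C f) (hr : r ≤ r')
    (hC : C ≤ C') : Bd A r' C' f := fun ψ B hB =>
  (h ψ B fun g hg => hB g (hg.trans hr)).trans (mul_le_mul_of_nonneg_right hC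
    ((norm_nonneg _).trans (hB 1 (by simp))))

lemma exists_bd (f : RG (FreeGroup ι)) : ∃ r C, 0 ≤ C ∧ Bd A r C f := by
  induction f using rg_ind with
  | h1 g => exact ⟨_, 1, zero_le_one, fun ψ B hB => by simpa using hB g le_rfl⟩
  | h2 f g hf hg =>
    obtain ⟨r, C, h0, h⟩ := hf
    obtain ⟨r', C', h0', h'⟩ := hg
    refine ⟨r + r', C + C', by positivity, fun ψ B hB => ?_⟩
    rw [map_add, add_mul]
    exact norm_add_le_of_le (h ψ B fun g hg => hB g (by omega)) (h' ψ B fun g hg => hB g (by omega))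
  | h3 c f hf =>
    obtain ⟨r, C, h0, h⟩ := hf
    refine ⟨r, ‖c‖ * C, by positivity, fun ψ B hB => ?_⟩
    rw [map_smul, norm_smul, mul_assoc]
    exact mul_le_mul_of_nonneg_left (h ψ B hB) (norm_nonneg _)

lemma Bd.mul {r : ℕ} {C : ℝ} {f : RG (FreeGroup ι)} (h : Bd A r C f) (a b : FreeGroup ι) :
    Bd A (a.norm + r + b.norm) C (gp a * f * gp b) := fun ψ B hB =>
  h (ψ ∘ₗ LinearMap.mulLeftRight ℝ (gp a, gp b)) B fun g hg => by
    simpa using hB (a * g * b) ((FreeGroup.norm_mul_le _ _).trans (by have := FreeGroup.norm_mul_le a g; omega))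

lemma bd_DD {L : ℕ} {K : ℝ} (hκ : ∀ i, Bd A L K (κ i)) (l : List (ι × Bool)) :
    Bd A (l.length + L) (K * l.length) (DD κ (gp (mk l))) := by
  induction l with
  | nil => exact fun ψ B _ => by rw [← one_eq_mk, gp_one, DD_one]; simp
  | cons p l ih =>
    intro ψ B hB
    have hl := norm_mk_le (L₁ := l)
    have e1 : mk (p :: l) = mk [p] * mk l := rfl
    have e2 : (mk [p]).norm ≤ 1 := norm_mk_le
    have e3 : ‖ψ (DD κ (gp (mk [p])) * gp (mk l))‖ ≤ K * B := by
      obtain ⟨i, _ | _⟩ := p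
      · rw [show mk [(i, false)] = (of i)⁻¹ from rfl, DD_inv, neg_mul, map_neg, norm_neg]
        exact (hκ i).mul _ _ ψ B fun g hg => hB g (by simp at hg ⊢; omega)
      · rw [show mk [(i, true)] = of i from rfl, DD_of, mul_assoc, ← map_mul, ← one_mul (κ i),
          ← map_one (MonoidAlgebra.of ℝ _)]
        exact (hκ i).mul _ _ ψ B fun g hg => hB g (by
          have := FreeGroup.norm_mul_le (of i) (mk l)
          simp at hg this ⊢; omega)
    have e4 := ih.mul (mk [p]) 1 ψ B fun g hg => hB g (by simp at hg ⊢; omega)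
    rw [gp_one, mul_one] at e4
    rw [e1, gp_mul, DD_mul, map_add]
    refine (norm_add_le_of_le e3 e4).trans_eq ?_
    simp; ring

lemma norm_pow_DD {L : ℕ} {K : ℝ} (hK : 0 ≤ K) (hκ : ∀ i, Bd A L K (κ i))
    (θ : FreeGroup ι →* unitary A) (n : ℕ) : ∀ (r : ℕ) (g : FreeGroup ι), g.norm ≤ L * r →
      ‖pi θ ((DD κ ^ n) (gp g))‖ ≤ (K * L) ^ n * r.ascFactorial n := by
  induction n with
  | zero => exact fun r g _ => by simpa [-MonoidAlgebra.of_apply] using norm_unitary_le (θ g).2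
  | succ n ih =>
    intro r g hg
    have h1 := bd_DD κ hκ g.toWord ((pi θ).toLinearMap ∘ₗ (DD κ ^ n)) _ fun g' hg' =>
      ih (r + 1) g' (by rw [mul_add, mul_one]; exact hg'.trans (Nat.add_le_add_right hg _))
    rw [mk_toWord] at h1
    rw [pow_succ, Nat.ascFactorial_succ, ← Nat.succ_ascFactorial]
    refine h1.trans ?_
    have : (g.toWord.length : ℝ) ≤ L * r := by exact_mod_cast hg
    push_cast
    calc _ ≤ K * (L * r) * ((K * L) ^ n * (r + 1).ascFactorial n) := by gcongr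
      _ = _ := by ring

theorem exists_der (v : ι) {b : RG (FreeGroup ι)} (hb : st b = -b) {s : ι} (hs : s ≠ v)
    (hb' : b ∈ MonoidAlgebra.supported ℝ ℝ {g | ∃ a, ∃ n : ℤ, g = a * of s ^ n * a⁻¹}) :
    ∃ d : Der (FreeGroup ι) A, d.D = DD (Pi.single v b) := by
  obtain ⟨r, C, hC, h⟩ := exists_bd (A := A) b
  have hκ : ∀ i, Bd A (r + 1) (C + 1) ((Pi.single v b : ι → _) i) := fun i => by
    rcases eq_or_ne i v with rfl | hi
    · rw [Pi.single_eq_same]; exact h.mono (by simp) (by simp)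
    · rw [Pi.single_eq_of_ne hi]
      exact fun ψ B hB => by
        simpa using mul_nonneg (by positivity) ((norm_nonneg _).trans (hB 1 (by simp)))
  refine ⟨⟨DD (Pi.single v b), DD_mul _, DD_st _ fun i => ?_, DD_tr _ (y := of s) ?_ fun i => ?_,
    2 * ((C + 1) * (r + 1 : ℕ)), by positivity, fun f => ?_⟩, rfl⟩
  · rcases eq_or_ne i v with rfl | hi
    · rwa [Pi.single_eq_same]
    · simp [hi]
  · rw [DD_of, Pi.single_eq_of_ne hs, zero_mul]
  · rcases eq_or_ne i v with rfl | hi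
    · rwa [Pi.single_eq_same]
    · simp [hi]
  · induction f using rg_ind with
    | h1 g =>
      refine ⟨2 ^ g.norm, fun n θ => (norm_pow_DD _ (by positivity) hκ θ n (g.norm + 1) g
        (by nlinarith)).trans ?_⟩
      rw [Nat.ascFactorial_eq_factorial_mul_choose]
      have : ((g.norm + n).choose n : ℝ) ≤ 2 ^ (g.norm + n) := by
        exact_mod_cast Nat.choose_le_two_pow _ _
      push_cast
      calc _ ≤ ((C + 1) * (r + 1)) ^ n * (n ! * 2 ^ (g.norm + n)) := by gcongr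
        _ = _ := by rw [mul_pow 2]; ring
    | h2 f g hf hg =>
      obtain ⟨B, hf⟩ := hf
      obtain ⟨B', hg⟩ := hg
      refine ⟨B + B', fun n θ => ?_⟩
      rw [map_add, map_add, add_mul, add_mul]
      exact norm_add_le_of_le (hf n θ) (hg n θ)
    | h3 c f hf =>
      obtain ⟨B, hf⟩ := hf
      refine ⟨‖c‖ * B, fun n θ => ?_⟩
      rw [map_smul, map_smul, norm_smul, mul_assoc, mul_assoc, ← mul_assoc B]
      exact mul_le_mul_of_nonneg_left (hf n θ) (norm_nonneg _)

end Vale.Agent.P086
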