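import Vale.Agent.P086.Step

/-! A generic free basis of rank three. -/

namespace Vale.Agent.P086

open Vale.Agent.P085 Finset Filter
open scoped Topology ComplexStarModule

variable {A : Type*} [CStarAlgebra A] {T : Tr A}

lemma word_cont {G : Type*} [Group G] {S : Set G} {w : G} (hw : w ∈ Subgroup.closure S) :
    ∃ C : ℝ, 0 ≤ C ∧ ∀ (θ θ' : G →* unitary A) (δ : ℝ), (∀ g ∈ S, T.n2 (θ' g - θ g) ≤ δ) →
      T.n2 (θ' w - θ w) ≤ C * δ := by
  induction hw using Subgroup.closure_induction with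
  | mem g hg => exact ⟨1, zero_le_one, fun θ θ' δ h => by simpa using h g hg⟩
  | one => exact ⟨0, le_rfl, fun θ θ' δ _ => by simp [T.n2_zero]⟩
  | mul a b _ _ ha hb =>
    obtain ⟨C, hC, ha⟩ := ha
    obtain ⟨D, hD, hb⟩ := hb
    refine ⟨C + D, by positivity, fun θ θ' δ h => ?_⟩
    rw [map_mul, map_mul, Submonoid.coe_mul, Submonoid.coe_mul, add_mul]
    refine (T.n2_triangle _ (θ a * θ' b) _).trans (add_le_add ?_ ?_)
    · rw [← sub_mul, T.n2_mul_unitary (θ' b).2]; exact ha θ θ' δ h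
    · rw [← mul_sub, T.n2_unitary_mul (θ a).2]; exact hb θ θ' δ h
  | inv a _ ha =>
    obtain ⟨C, hC, ha⟩ := ha
    refine ⟨C, hC, fun θ θ' δ h => ?_⟩
    rw [map_inv, map_inv, ← Unitary.star_eq_inv, ← Unitary.star_eq_inv, Unitary.coe_star,
      Unitary.coe_star, ← star_sub, T.n2_star]
    exact ha θ θ' δ h

lemma word_mem {G : Type*} [Group G] {S : Set G} {w : G} (hw : w ∈ Subgroup.closure S)
    {θ : G →* unitary A} {N : StarSubalgebra ℂ A} (h : ∀ g ∈ S, (θ g : A) ∈ N) : (θ w : A) ∈ N := by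
  induction hw using Subgroup.closure_induction with
  | mem g hg => exact h g hg
  | one => simp
  | mul a b _ _ ha hb => rw [map_mul]; exact mul_mem ha hb
  | inv a _ ha => rw [map_inv]; exact star_mem ha

variable (T) in
/-- Closure in the 2-norm. -/
def cl (N : StarSubalgebra ℂ A) : StarSubalgebra ℂ A where
  carrier := {a | ∀ ε > 0, ∃ y ∈ N, T.n2 (a - y) < ε}
  mul_mem' {a b} ha hb ε hε := by
    obtain ⟨y, hy, h⟩ := hb (ε / 2 / (‖a‖ + 1)) (by positivity)
    obtain ⟨y', hy', h'⟩ := ha (ε / 2 / (‖y‖ + 1)) (by positivity)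
    refine ⟨y' * y, mul_mem hy' hy, ?_⟩
    rw [lt_div_iff₀ (by positivity)] at h h'
    have e1 := T.n2_triangle (a * b) (a * y) (y' * y)
    rw [← mul_sub, ← sub_mul] at e1
    nlinarith [T.n2_mul_le a (b - y), T.n2_mul_le' (a - y') y, T.n2_nonneg (b - y),
      T.n2_nonneg (a - y')]
  add_mem' {a b} ha hb ε hε := by
    obtain ⟨y, hy, h⟩ := ha _ (half_pos hε)
    obtain ⟨y', hy', h'⟩ := hb _ (half_pos hε)
    refine ⟨y + y', add_mem hy hy', ?_⟩
    rw [add_sub_add_comm]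
    linarith [T.n2_add_le (a - y) (b - y')]
  algebraMap_mem' r ε hε := ⟨_, algebraMap_mem N r, by simpa [T.n2_zero]⟩
  star_mem' {a} ha ε hε := by
    obtain ⟨y, hy, h⟩ := ha _ hε
    exact ⟨star y, star_mem hy, by rwa [← star_sub, T.n2_star]⟩

lemma le_cl (N : StarSubalgebra ℂ A) : N ≤ cl T N := fun a ha ε hε =>
  ⟨a, ha, by simpa [T.n2_zero]⟩

lemma cl_closed (N : StarSubalgebra ℂ A) : T.Closed (cl T N) := fun x R y hx hy ε hε => by
  obtain ⟨n, hn⟩ := (hy.eventually (gt_mem_nhds (half_pos hε))).exists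
  obtain ⟨z, hz, h⟩ := (hx n).1 _ (half_pos hε)
  exact ⟨z, hz, by linarith [T.n2_triangle y (x n) z, T.n2_sub_rev y (x n)]⟩

lemma cl_le {N : StarSubalgebra ℂ A} (hN : T.Closed N) : cl T N ≤ N := by
  have h4 : ∀ a ∈ cl T N, star a = a → a ∈ N := fun a h ha => by
    choose y hy hy' using fun n : ℕ => h _ (Nat.one_div_pos_of_nat (n := n))
    choose z hz using fun n => exists_clamp (T := T) hN.isClosed ha (hy n)
    refine hN z ‖a‖ a (fun n => ⟨(hz n).1, (hz n).2.2.1⟩) (squeeze_zero (fun _ => T.n2_nonneg _)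
      (fun n => ?_) tendsto_one_div_add_atTop_nhds_zero_nat)
    rw [T.n2_sub_rev]
    exact (hz n).2.2.2.trans (hy' n).le
  intro a ha
  rw [← realPart_add_I_smul_imaginaryPart a]
  refine add_mem (h4 _ (realPart_mem ha) (ℜ a).2) (N.smul_mem (h4 _ ?_ (ℑ a).2) _)
  rw [imaginaryPart_apply_coe, ← Complex.coe_smul]
  exact (cl T N).smul_mem ((cl T N).smul_mem (sub_mem ha (star_mem ha)) _) _

variable (T) in
/-- Limits of bounded sequences. -/
def lims (N : ℕ → StarSubalgebra ℂ A) : StarSubalgebra ℂ A where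
  carrier := {a | ∃ (y : ℕ → A) (C : ℝ), (∀ n, y n ∈ N n ∧ ‖y n‖ ≤ C) ∧
    Tendsto (fun n => T.n2 (a - y n)) atTop (𝓝 0)}
  mul_mem' := by
    rintro a b ⟨f, C, f1, f3⟩ ⟨g, D, g1, g3⟩
    refine ⟨fun n => f n * g n, C * D, fun n => ⟨mul_mem (f1 n).1 (g1 n).1,
      norm_mul_le_of_le (f1 n).2 (g1 n).2⟩, squeeze_zero (fun _ => T.n2_nonneg _) (fun n => ?_)
        (by simpa using (f3.mul_const ‖b‖).add (g3.const_mul C))⟩
    refine (T.n2_triangle _ (f n * b) _).trans ?_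
    rw [← sub_mul, ← mul_sub]
    exact add_le_add (T.n2_mul_le' _ _) ((T.n2_mul_le _ _).trans
      (mul_le_mul_of_nonneg_right (f1 n).2 (T.n2_nonneg _)))
  add_mem' := by
    rintro a b ⟨f, C, f1, f3⟩ ⟨g, D, g1, g3⟩
    refine ⟨fun n => f n + g n, C + D, fun n => ⟨add_mem (f1 n).1 (g1 n).1,
      norm_add_le_of_le (f1 n).2 (g1 n).2⟩, squeeze_zero (fun _ => T.n2_nonneg _) (fun n => ?_)
        (by simpa using f3.add g3)⟩
    rw [add_sub_add_comm]
    exact T.n2_add_le _ _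
  algebraMap_mem' r := ⟨fun _ => _, _, fun n => ⟨algebraMap_mem _ r, le_rfl⟩, by simp [T.n2_zero]⟩
  star_mem' := by
    rintro a ⟨f, C, f1, f3⟩
    exact ⟨fun n => star (f n), C, fun n => ⟨star_mem (f1 n).1, by simpa using (f1 n).2⟩,
      by simpa only [← star_sub, T.n2_star] using f3⟩

variable {ι : Type*} [DecidableEq ι] {x z v : ι} (hzx : z ≠ x) (hvx : v ≠ x) (hvz : v ≠ z)
include hzx hvx hvz

lemma steps (F : Finset ι) (hF : ∀ i ∈ F, i ≠ x ∧ i ≠ z ∧ i ≠ v) {θ : FreeGroup ι →* unitary A}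
    (hθ : Bas T θ) {ε : ℝ} (hε : 0 < ε) : ∃ θ' : FreeGroup ι →* unitary A, Bas T θ' ∧
      (∀ i ∉ F, i ≠ v → θ' (.of i) = θ (.of i)) ∧ T.n2 (θ' (.of v) - θ (.of v)) ≤ ε ∧
      ∀ i ∈ F, ∃ w ∈ Subgroup.closure {.of x, .of z, .of v}, T.n2 (θ' w - θ (.of i)) ≤ ε := by
  induction F using Finset.induction_on generalizing ε with
  | empty => exact ⟨θ, hθ, fun _ _ _ => rfl, by simp [T.n2_zero, hε.le], by simp⟩
  | insert s F hs ih =>
    obtain ⟨θ₁, h1, h2, h3, h4⟩ := ih (fun i hi => hF i (mem_insert_of_mem hi)) (half_pos hε)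
    choose! w hw hw' using h4
    choose! C hC hC' using fun i hi => word_cont (T := T) (hw i hi)
    have h5 : 0 ≤ ∑ i ∈ F, C i := sum_nonneg hC
    obtain ⟨a1, a2, a3⟩ := hF s (mem_insert_self _ _)
    have hδ : 0 < ε / 2 / (∑ i ∈ F, C i + 1) := by positivity
    have hδ' : ε / 2 / (∑ i ∈ F, C i + 1) ≤ ε / 2 := div_le_self (by positivity) (by linarith)
    obtain ⟨θ₂, g1, g2, g3, u, hu, g4⟩ := step h1 hzx hvx hvz a1 a2 a3 hδ
    refine ⟨θ₂, g1, fun i hi hi' => ?_, by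
      linarith [T.n2_triangle (θ₂ (.of v) : A) (θ₁ (.of v)) (θ (.of v))], fun i hi => ?_⟩
    · rw [mem_insert, not_or] at hi
      rw [g2 i hi' hi.1, h2 i hi.2 hi']
    · rcases mem_insert.mp hi with rfl | hi
      · exact ⟨u, hu, by rw [← h2 i hs a3]; linarith⟩
      · refine ⟨w i, hw i hi, ?_⟩
        have e1 := hC' i hi θ₁ θ₂ (ε / 2 / (∑ i ∈ F, C i + 1)) (by
          rintro _ (rfl | rfl | rfl)
          · rw [g2 _ hvx.symm a1.symm, sub_self, T.n2_zero]; exact hδ.le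
          · rw [g2 _ hvz.symm a2.symm, sub_self, T.n2_zero]; exact hδ.le
          · exact g3)
        have e2 : C i * (ε / 2 / (∑ i ∈ F, C i + 1)) ≤ ε / 2 := by
          rw [mul_div_assoc', div_le_iff₀ (by positivity), mul_comm]
          gcongr
          linarith [single_le_sum hC hi]
        linarith [T.n2_triangle (θ₂ (w i) : A) (θ₁ (w i)) (θ (.of i)), hw' i hi]

lemma exists_near' [Countable ι] {θ : FreeGroup ι →* unitary A} (hθ : Bas T θ)
    {Q : StarSubalgebra ℂ A} (hx : (θ (.of x) : A) ∈ Q) (hz : (θ (.of z) : A) ∈ Q) (a : A)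
    {ε : ℝ} (hε : 0 < ε) : ∃ θ' : FreeGroup ι →* unitary A, Bas T θ' ∧ θ' (.of x) = θ (.of x) ∧
      θ' (.of z) = θ (.of z) ∧ T.n2 (θ' (.of v) - θ (.of v)) < ε ∧
      ∃ y ∈ CV Q (θ' (.of v)), T.n2 (a - y) < ε := by
  have : Nonempty ι := ⟨x⟩
  obtain ⟨e, he⟩ := exists_surjective_nat ι
  choose θ' h1 h2 h3 h4 using fun n : ℕ => steps hzx hvx hvz
    (((range n).image e).filter fun i => i ≠ x ∧ i ≠ z ∧ i ≠ v) (by simp) hθ
    (Nat.one_div_pos_of_nat (n := n))
  have h5 : ∀ n, θ' n (.of x) = θ (.of x) := fun n => h2 n x (by simp) hvx.symm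
  have h6 : ∀ n, θ' n (.of z) = θ (.of z) := fun n => h2 n z (by simp) hvz.symm
  have h7 : ∀ n, ∀ w ∈ Subgroup.closure {.of x, .of z, .of v}, (θ' n w : A) ∈ CV Q (θ' n (.of v)) :=
    fun n w hw => word_mem hw (by
      rintro _ (rfl | rfl | rfl) <;>
        refine StarSubalgebra.le_topologicalClosure _ (StarAlgebra.subset_adjoin _ _ ?_)
      exacts [.inr (h5 n ▸ hx), .inr (h6 n ▸ hz), .inl rfl])
  have h8 : ∀ n k, ∃ w ∈ Subgroup.closure {.of x, .of z, .of v},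
      k < n → T.n2 (θ' n w - θ (.of (e k))) ≤ 1 / (n + 1) := fun n k => by
    have h0 := (Nat.one_div_pos_of_nat (α := ℝ) (n := n)).le
    by_cases hk : k < n
    · by_cases h : e k ≠ x ∧ e k ≠ z ∧ e k ≠ v
      · obtain ⟨w, hw, hw'⟩ := h4 n (e k) (by simpa using ⟨⟨k, hk, rfl⟩, h⟩)
        exact ⟨w, hw, fun _ => hw'⟩
      · refine ⟨.of (e k), Subgroup.subset_closure (by simp; tauto), fun _ => ?_⟩
        simp only [not_and_or, not_not] at h
        rcases h with h | h | h <;> simp only [h, h5, h6, sub_self, T.n2_zero, h0, h3]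
    · exact ⟨1, one_mem _, fun h => absurd h hk⟩
  choose w hw hw' using h8
  have h9 := hθ.gen _ (cl_closed (lims T fun n => CV Q (θ' n (.of v)))) fun g => le_cl _
    (word_mem (S := Set.range FreeGroup.of) (by simp) (by
      rintro _ ⟨i, rfl⟩
      obtain ⟨k, rfl⟩ := he i
      refine ⟨fun n => θ' n (w n k), 1, fun n => ⟨h7 n _ (hw n k), norm_unitary_le (θ' n _).2⟩,
        squeeze_zero' (.of_forall fun _ => T.n2_nonneg _) ?_
          tendsto_one_div_add_atTop_nhds_zero_nat⟩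
      filter_upwards [eventually_gt_atTop k] with n hn
      rw [T.n2_sub_rev]
      exact hw' n k hn))
  obtain ⟨b, ⟨y, C, hy, hy'⟩, hb⟩ := h9.ge (x := a) trivial _ (half_pos hε)
  obtain ⟨n, hn, hn'⟩ := ((hy'.eventually (gt_mem_nhds (half_pos hε))).and
    (tendsto_one_div_add_atTop_nhds_zero_nat.eventually (gt_mem_nhds hε))).exists
  exact ⟨θ' n, h1 n, h5 n, h6 n, (h3 n).trans_lt hn', y n, (hy n).1, by
    linarith [T.n2_triangle a b (y n)]⟩

theorem exists_basis [Countable ι] {θ : FreeGroup ι →* unitary A} (hθ : Bas T θ)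
    (hf : ∀ a, T.n2 a = 0 → a = 0) (hc : T.Complete) :
    ∃ θ' : FreeGroup (Fin 3) →* unitary A, Bas T θ' := by
  have : CompleteSpace (UT T) := Metric.complete_of_cauchySeq_tendsto fun u hu => by
    obtain ⟨y, hy⟩ := hc (fun n => (u n).u) 1 (fun n => norm_unitary_le (u n).u.2)
      ((uniformContinuous_comap (f := fun u : UT T => T.to2 u.u)).comp_cauchySeq hu)
    have hy' : Tendsto (fun n => T.n2 (star ((u n).u : A) - star y)) atTop (𝓝 0) := by
      simpa only [← star_sub, T.n2_star] using hy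
    refine ⟨⟨y, Tr.lim_mul hf (fun n => norm_unitary_le (Unitary.star_mem (u n).u.2)) hy' hy
      (by simp [T.n2_zero]), Tr.lim_mul hf (fun n => norm_unitary_le (u n).u.2) hy hy'
      (by simp [T.n2_zero])⟩, tendsto_iff_dist_tendsto_zero.mpr (hy.congr fun n => ?_)⟩
    rw [UT.dist_eq]
  set Q := StarAlgebra.adjoin ℂ {(θ (.of x) : A), (θ (.of z) : A)}
  have hx : (θ (.of x) : A) ∈ Q := StarAlgebra.subset_adjoin _ _ (by simp)
  have hz : (θ (.of z) : A) ∈ Q := StarAlgebra.subset_adjoin _ _ (by simp)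
  set X := closure {u : UT T | ∃ θ' : FreeGroup ι →* unitary A, Bas T θ' ∧
    θ' (.of x) = θ (.of x) ∧ θ' (.of z) = θ (.of z) ∧ u.u = θ' (.of v)}
  have : CompleteSpace X := isClosed_closure.completeSpace_coe
  let O : ι × ℕ → Set X := fun p =>
    {u | ∃ y ∈ CV Q u.1.u, T.n2 (θ (.of p.1) - y) < 1 / (p.2 + 1)}
  have hO : Dense (⋂ p, O p) := by
    refine dense_iInter_of_isOpen (fun p => Metric.isOpen_iff.mpr ?_) fun p =>
      Metric.dense_iff.mpr fun u δ hδ => ?_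
    · rintro u ⟨y, hy, h⟩
      obtain ⟨δ, hδ, h'⟩ := follow (T := T) u.1.u hy (sub_pos.mpr h)
      refine ⟨δ, hδ, fun u' hu' => ?_⟩
      obtain ⟨y', hy', h''⟩ := h' u'.1.u ((UT.dist_eq _ _).symm.trans_lt hu')
      exact ⟨y', hy', by linarith [T.n2_triangle (θ (.of p.1) : A) y y']⟩
    · obtain ⟨u', ⟨θ₁, h1, h2, h3, h4⟩, h5⟩ := Metric.mem_closure_iff.mp u.2 _ (half_pos hδ)
      obtain ⟨θ₂, g1, g2, g3, g4, y, hy, g5⟩ := exists_near' hzx hvx hvz h1 (h2 ▸ hx) (h3 ▸ hz)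
        (θ (.of p.1)) (lt_min (half_pos hδ) (Nat.one_div_pos_of_nat (n := p.2)))
      refine ⟨⟨⟨θ₂ (.of v)⟩, subset_closure ⟨θ₂, g1, g2.trans h2, g3.trans h3, rfl⟩⟩, ?_, y, hy,
        g5.trans_le (min_le_right _ _)⟩
      rw [UT.dist_eq, h4, T.n2_sub_rev] at h5
      refine (UT.dist_eq _ _).trans_lt ?_
      linarith [T.n2_triangle (θ₂ (.of v) : A) (θ₁ (.of v)) u.1.u, min_le_left (δ / 2)
        (1 / (p.2 + 1))]
  obtain ⟨⟨u, hu⟩, hu'⟩ := @Dense.nonempty _ _ _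
    ⟨⟨⟨θ (.of v)⟩, subset_closure ⟨θ, hθ, rfl, rfl, rfl⟩⟩⟩ hO
  rw [Set.mem_iInter] at hu'
  refine ⟨FreeGroup.lift ![θ (.of x), θ (.of z), u.u], fun g hg => ?_, fun N hN h => ?_⟩
  · obtain ⟨C, hC, h⟩ := word_cont (T := T) (S := Set.range FreeGroup.of) (w := g) (by simp)
    refine norm_le_zero_iff.mp (le_of_forall_pos_le_add fun ε hε => ?_)
    obtain ⟨u', ⟨θ₁, h1, h2, h3, h4⟩, h5⟩ := Metric.mem_closure_iff.mp hu (ε / (C + 1))
      (by positivity)
    have e1 := h (θ₁.comp (FreeGroup.map ![x, z, v])) (FreeGroup.lift ![θ (.of x), θ (.of z), u.u])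
      (ε / (C + 1)) (by
        rintro _ ⟨i, rfl⟩
        rw [UT.dist_eq, h4] at h5
        fin_cases i <;> simp [h2, h3, T.n2_zero, h5.le] <;> positivity)
    have e2 := h1.tr (FreeGroup.map ![x, z, v] g) fun h' => hg (FreeGroup.map_injective (by
      intro i j
      fin_cases i <;> fin_cases j <;> simp [hzx, hvx, hvz, hzx.symm, hvx.symm, hvz.symm])
      (h'.trans (map_one _).symm))
    have e3 := (T.norm_τ_le_n2 _).trans e1
    rw [map_sub, MonoidHom.comp_apply, e2, sub_zero] at e3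
    refine e3.trans ?_
    rw [zero_add, mul_div_assoc', div_le_iff₀ (by positivity)]
    nlinarith
  · have h1 : CV Q u.u ≤ N := StarSubalgebra.topologicalClosure_minimal
      (StarAlgebra.adjoin_le (Set.insert_subset (by simpa using h (.of 2))
        (StarAlgebra.adjoin_le (Set.insert_subset (by simpa using h (.of 0))
          (by simpa using h (.of 1)))))) hN.isClosed
    refine hθ.gen N hN fun g => word_mem (S := Set.range FreeGroup.of) (by simp) ?_
    rintro _ ⟨i, rfl⟩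
    refine cl_le hN fun ε hε => ?_
    obtain ⟨n, hn⟩ := exists_nat_one_div_lt hε
    obtain ⟨y, hy, h⟩ := hu' (i, n)
    exact ⟨y, h1 hy, h.trans hn⟩

end Vale.Agent.P086
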