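import Vale.Agent.P086.Generic
import Vale.Agent.P086.Defs
import Vale.Agent.P085.VN

/-! Free group factors of rank at least three are isomorphic. -/

namespace Vale.Agent.P086

open Vale.Agent.P085 Filter StarSubalgebra
open scoped Topology InnerProductSpace

attribute [local instance] vn_closed

/-- The von Neumann algebra generated by a set. -/
noncomputable def vN {H : Type*} [NormedAddCommGroup H] [InnerProductSpace ℂ H] [CompleteSpace H]
    (s : Set (H →L[ℂ] H)) : VonNeumannAlgebra H where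
  toStarSubalgebra := centralizer ℂ (centralizer ℂ s : Set (H →L[ℂ] H))
  centralizer_centralizer' := by simp

lemma centralizer_map {A B : Type*} [CStarAlgebra A] [CStarAlgebra B] (Φ : A ≃⋆ₐ[ℂ] B)
    (s : Set A) : Φ '' (centralizer ℂ s : Set A) = centralizer ℂ (Φ '' s) := by
  ext y
  obtain ⟨x, rfl⟩ := EquivLike.surjective Φ y
  simp only [(EquivLike.injective Φ).mem_set_image, SetLike.mem_coe, mem_centralizer_iff, Set.forall_mem_image,
    ← map_star, ← map_mul, (EquivLike.injective Φ).eq_iff]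

/-- Unitary representations. -/
abbrev URep (G A : Type*) [Group G] [CStarAlgebra A] := G →* unitary A

lemma IsTr.inner {G A : Type*} [Group G] [DecidableEq G] [CStarAlgebra A] {T : Tr A}
    {θ : G →* unitary A} (h : IsTr T θ) (a b : G) :
    T.τ (star (θ a : A) * θ b) = if a = b then 1 else 0 := by
  split_ifs with hg
  · rw [hg, (θ b).2.1, T.one]
  · simpa [← Unitary.star_eq_inv] using h (a⁻¹ * b) (by rwa [Ne, inv_mul_eq_one])

lemma IsTr.onb {G A H : Type*} [Group G] [CStarAlgebra A] [NormedAddCommGroup H]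
    [InnerProductSpace ℂ H] [CompleteSpace H] {T : Tr A} {θ : G →* unitary A} (h : IsTr T θ)
    (ι : A →⋆ₐ[ℂ] (H →L[ℂ] H)) (ξ : H) (hξ : ∀ x, T.τ x = ⟪ξ, ι x ξ⟫_ℂ) :
    Orthonormal ℂ fun g => ι (θ g) ξ := by
  classical
  refine orthonormal_iff_ite.mpr fun a b => ?_
  rw [← h.inner, hξ, map_mul, map_star, ContinuousLinearMap.star_eq_adjoint, mul_apply_eq_comp,
    ContinuousLinearMap.adjoint_inner_right]

variable {G : Type*}

lemma shift_apply (e : G ≃ G) (ξ : l2 G) (h : G) : shift e ξ h = ξ (e h) := rfl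

lemma star_shift (e : G ≃ G) : star (shift e) = shift e.symm := by
  rw [ContinuousLinearMap.star_eq_adjoint, eq_comm, ContinuousLinearMap.eq_adjoint_iff]
  intro ξ η
  rw [lp.inner_eq_tsum, lp.inner_eq_tsum, ← e.tsum_eq]
  simp [shift_apply]

open Classical in
/-- The canonical basis. -/
noncomputable def dl (g : G) : l2 G := lp.single 2 g 1

open Classical in
lemma dl_apply (g h : G) : dl g h = if h = g then 1 else 0 := by
  simp [dl, lp.single_apply, Pi.single_apply]

lemma hasSum_dl (ξ : l2 G) : HasSum (fun g => ξ g • dl g) ξ := by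
  classical
  convert lp.hasSum_single (p := 2) (by simp) ξ with g
  simp [dl, ← lp.single_smul]

lemma inner_dl (g : G) (ξ : l2 G) : ⟪dl g, ξ⟫_ℂ = ξ g := by
  classical
  simp [dl, lp.inner_single_left]

lemma ext_dl {x y : l2 G →L[ℂ] l2 G} (h : ∀ g, x (dl g) = y (dl g)) : x = y := by
  ext1 ξ
  refine ((hasSum_dl ξ).mapL x).unique ?_
  simpa [h] using (hasSum_dl ξ).mapL y

variable [Group G]

lemma lam_dl (g h : G) : lam g (dl h) = dl (g * h) := by
  ext k
  simp only [lam, shift_apply, dl_apply, Equiv.coe_mulLeft]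
  congr 1
  exact propext inv_mul_eq_iff_eq_mul

lemma star_lam (g : G) : star (lam g) = lam g⁻¹ := by simp [lam, star_shift]

lemma lam_mul (g h : G) : lam (g * h) = lam g * lam h := ext_dl fun k => by
  simp [lam_dl, mul_assoc]

lemma lam_one : lam (1 : G) = 1 := ext_dl fun k => by simp [lam_dl]

lemma apply_dl {x : l2 G →L[ℂ] l2 G} (hx : x ∈ groupVN G) (g : G) :
    x (dl g) = shift (Equiv.mulRight g⁻¹) (x (dl 1)) := by
  have := ((mem_centralizer_iff ℂ).mp hx (shift (Equiv.mulRight g⁻¹)) ((mem_centralizer_iff ℂ).mpr (by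
    rintro _ ⟨a, rfl⟩
    rw [star_lam]
    constructor <;> ext <;> simp [lam, shift_apply, mul_assoc]))).1
  rw [← mul_apply_eq_comp, this, mul_apply_eq_comp]
  congr 1
  ext k
  simp only [shift_apply, dl_apply, Equiv.coe_mulRight]
  congr 1
  exact propext mul_inv_eq_one.symm

variable (G) in
/-- The canonical trace. -/
noncomputable def tr : Tr (vN (Set.range (lam (G := G)))).toStarSubalgebra where
  τ :=
    { toFun := fun x => ⟪dl 1, x.1 (dl 1)⟫_ℂ
      map_add' := fun x y => by simp [inner_add_right]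
      map_smul' := fun c x => by simp [inner_smul_right] }
  comm x y := by
    have : ∀ x y : (vN (Set.range (lam (G := G)))).toStarSubalgebra,
        HasSum (fun g => y.1 (dl 1) g * x.1 (dl 1) g⁻¹) ⟪dl 1, (x * y).1 (dl 1)⟫_ℂ := fun x y => by
      have := (hasSum_dl (y.1 (dl 1))).mapL (innerSL ℂ (dl 1) ∘L x.1)
      have e : ∀ g, (innerSL ℂ (dl 1) ∘L x.1) (y.1 (dl 1) g • dl g) =
          y.1 (dl 1) g * x.1 (dl 1) g⁻¹ := fun g => by
        simp [inner_dl, apply_dl x.2 g, shift_apply]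
      simp only [e] at this
      exact this
    refine (this x y).unique ((Equiv.inv G).hasSum_iff.mp ?_)
    simpa [Function.comp_def, mul_comm] using this y x
  pos x := by
    have := inner_self_nonneg (𝕜 := ℂ) (x := x.1 (dl 1))
    rw [← ContinuousLinearMap.adjoint_inner_right] at this
    refine ⟨this, ?_⟩
    have := inner_self_im (𝕜 := ℂ) (x.1 (dl 1))
    rw [← ContinuousLinearMap.adjoint_inner_right] at this
    exact this.symm
  one := by simp [inner_dl, dl_apply]

lemma tr_inner (x y : (vN (Set.range (lam (G := G)))).toStarSubalgebra) :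
    (tr G).τ (star x * y) = ⟪x.1 (dl 1), y.1 (dl 1)⟫_ℂ :=
  ContinuousLinearMap.adjoint_inner_right x.1 (dl 1) (y.1 (dl 1))

lemma tr_n2 (x : (vN (Set.range (lam (G := G)))).toStarSubalgebra) :
    (tr G).n2 x = ‖x.1 (dl 1)‖ := by
  rw [← sq_eq_sq₀ (Tr.n2_nonneg _ _) (norm_nonneg _), Tr.n2_sq, tr_inner,
    ← inner_self_eq_norm_sq (𝕜 := ℂ)]
  rfl

lemma tr_faithful (x : (vN (Set.range (lam (G := G)))).toStarSubalgebra) (h : (tr G).n2 x = 0) :
    x = 0 := Subtype.ext (ext_dl fun g => by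
  rw [tr_n2, norm_eq_zero] at h
  simp [apply_dl x.2 g, h])

lemma tr_nrm : Nrm (tr G) := fun _ _ _ _ _ _ h => h _ _

lemma mem_vN {H : Type*} [NormedAddCommGroup H] [InnerProductSpace ℂ H] [CompleteSpace H]
    {s : Set (H →L[ℂ] H)} {x : H →L[ℂ] H} (hx : x ∈ s) : x ∈ (vN s).toStarSubalgebra :=
  (mem_centralizer_iff ℂ).mpr fun _ hy => ⟨((mem_centralizer_iff ℂ).mp hy x hx).1.symm,
    ((mem_centralizer_iff ℂ).mp (star_mem hy) x hx).1.symm⟩

variable (G) in
/-- The left regular representation. -/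
noncomputable def lamU : URep G (vN (Set.range (lam (G := G)))).toStarSubalgebra where
  toFun g := ⟨⟨lam g, mem_vN ⟨g, rfl⟩⟩, by
    constructor <;> exact Subtype.ext (by simp [star_lam, ← lam_mul, lam_one])⟩
  map_one' := Subtype.ext (Subtype.ext lam_one)
  map_mul' a b := Subtype.ext (Subtype.ext (lam_mul a b))

lemma bas_lamU : Bas (tr G) (lamU G) := by
  refine ⟨fun g hg => ?_, fun N hN h => eq_top_iff.mpr fun a _ => cl_le hN fun ε hε => ?_⟩
  · change ⟪dl 1, lam g (dl 1)⟫_ℂ = 0
    simp [inner_dl, lam_dl, dl_apply, hg.symm]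
  · obtain ⟨F, hF⟩ := (Metric.tendsto_nhds.mp (hasSum_dl (a.1 (dl 1))) ε hε).exists
    refine ⟨∑ g ∈ F, a.1 (dl 1) g • (lamU G g : _), sum_mem fun g _ => N.smul_mem (h g) _, ?_⟩
    rw [tr_n2]
    simpa [lamU, lam_dl, dist_eq_norm'] using hF

lemma iso_of_rep {G' : Type*} [Group G'] {t : G' → l2 G →L[ℂ] l2 G} (t0 : t 1 = 1)
    (t1 : ∀ g h, t (g * h) = t g * t h) (t2 : ∀ g, star (t g) = t g⁻¹)
    (h1 : ∀ x ∈ groupVN G, x ∈ (vN (Set.range t)).toStarSubalgebra)
    (h2 : ∀ x ∈ (vN (Set.range t)).toStarSubalgebra, x ∈ groupVN G)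
    (h3 : Orthonormal ℂ fun g => t g (dl 1)) : Nonempty (groupVN G ≃⋆ₐ[ℂ] groupVN G') := by
  classical
  set K := (Submodule.span ℂ (Set.range fun g => t g (dl 1))).topologicalClosure
  have hK : IsClosed (K : Set (l2 G)) := Submodule.isClosed_topologicalClosure _
  have hK1 : ∀ g, t g (dl 1) ∈ K := fun g =>
    Submodule.le_topologicalClosure _ (Submodule.subset_span ⟨g, rfl⟩)
  have h4 : ∀ g, K.starProjection * t g * K.starProjection = t g * K.starProjection := fun g => by
    have : K ≤ K.comap (t g).toLinearMap := Submodule.topologicalClosure_minimal _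
      (Submodule.span_le.mpr (by rintro _ ⟨h, rfl⟩; simpa [t1] using hK1 (g * h)))
      (hK.preimage (t g).continuous)
    ext1 ξ
    exact Submodule.starProjection_eq_self_iff.mpr (this (K.starProjection_apply_mem ξ))
  have h5 : ∀ g, t g * K.starProjection = K.starProjection * t g := fun g => by
    have := congrArg star (h4 g⁻¹)
    simp only [star_mul, t2, inv_inv, isStarProjection_starProjection.isSelfAdjoint.star_eq,
      ← mul_assoc] at this
    rw [← h4, this]
  have h6 : ⊤ ≤ K := fun ξ _ => hK.mem_of_tendsto (hasSum_dl ξ) (.of_forall fun F =>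
    K.sum_mem fun g _ => K.smul_mem _ (by
      have := ((mem_centralizer_iff ℂ).mp (h1 _ (mem_vN ⟨g, rfl⟩)) K.starProjection
        ((mem_centralizer_iff ℂ).mpr (by rintro _ ⟨g, rfl⟩; exact ⟨h5 g, t2 g ▸ h5 _⟩))).1
      have e : K.starProjection (dl 1) = dl 1 :=
        Submodule.starProjection_eq_self_iff.mpr (by simpa [t0] using hK1 1)
      have := congr($this (dl 1))
      simp only [mul_apply_eq_comp, e, lam_dl, mul_one] at this
      exact this ▸ K.starProjection_apply_mem _))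
  set b := HilbertBasis.mk h3 h6
  have hb : ∀ g, b g = t g (dl 1) := fun g => congrFun (HilbertBasis.coe_mk h3 h6) g
  set Φ := b.repr.conjStarAlgEquiv
  have h7 : ∀ g, Φ (t g) = lam g := fun g => ext_dl fun h => by
    rw [LinearIsometryEquiv.conjStarAlgEquiv_apply_apply, lam_dl, dl, b.repr_symm_single, hb,
      ← mul_apply_eq_comp, ← t1, ← hb, b.repr_self, dl]
  have h8 : ∀ x, x ∈ groupVN G ↔ Φ x ∈ groupVN G' := fun x => by
    rw [groupVN, groupVN, show Set.range (lam (G := G')) = Φ '' Set.range t by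
      simp [← Set.range_comp, Function.comp_def, h7], ← centralizer_map, ← SetLike.mem_coe,
      ← SetLike.mem_coe, ← centralizer_map, (EquivLike.injective Φ).mem_set_image]
    exact ⟨h1 x, h2 x⟩
  exact ⟨{
    toFun := fun x => ⟨Φ x, (h8 _).mp x.2⟩
    invFun := fun y => ⟨Φ.symm y, (h8 _).mpr (by simp)⟩
    left_inv := fun x => by simp
    right_inv := fun x => by simp
    map_mul' := fun x y => Subtype.ext (map_mul Φ _ _)
    map_add' := fun x y => Subtype.ext (map_add Φ _ _)
    map_star' := fun x => Subtype.ext (map_star Φ _)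
    map_smul' := fun c x => Subtype.ext (map_smul Φ _ _) }⟩

theorem iso_of_bas {G' : Type*} [Group G'] {θ : URep G' (vN (Set.range (lam (G := G)))).toStarSubalgebra}
    (hθ : Bas (tr G) θ) :
    Nonempty (groupVN G ≃⋆ₐ[ℂ] groupVN G') := by
  obtain ⟨t, ht⟩ : ∃ t : G' → l2 G →L[ℂ] l2 G, ∀ g, t g = (θ g).1.1 := ⟨_, fun _ => rfl⟩
  have t1 : ∀ g h, t (g * h) = t g * t h := fun g h => by simp [ht]
  have t2 : ∀ g, star (t g) = t g⁻¹ := fun g => by rw [ht, ht, map_inv]; rfl
  have h1 : ∀ x ∈ groupVN G, x ∈ (vN (Set.range t)).toStarSubalgebra := fun x hx =>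
    (hθ.gen _ (tr_nrm.closed tr_faithful (vN (Set.range t))) fun g => mem_vN ⟨g, ht g⟩).ge
      (x := ⟨x, hx⟩) trivial
  have h2 : ∀ x ∈ (vN (Set.range t)).toStarSubalgebra, x ∈ groupVN G := fun x hx =>
    (mem_centralizer_iff ℂ).mpr fun y hy => (mem_centralizer_iff ℂ).mp hx y ((mem_centralizer_iff ℂ).mpr (by
      rintro _ ⟨g, rfl⟩
      rw [ht]
      exact ⟨((mem_centralizer_iff ℂ).mp (θ g).1.2 y hy).1.symm,
        ((mem_centralizer_iff ℂ).mp (star_mem (θ g).1.2) y hy).1.symm⟩))
  have h3 : Orthonormal ℂ fun g => t g (dl 1) := by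
    rw [show t = fun g => (vN (Set.range (lam (G := G)))).toStarSubalgebra.subtype (θ g) from
      funext ht]
    exact hθ.tr.onb _ _ fun _ => rfl
  exact iso_of_rep (by simp [ht]) t1 t2 h1 h2 h3

theorem iso_three {ι : Type*} [Countable ι] {x z v : ι} (hzx : z ≠ x) (hvx : v ≠ x) (hvz : v ≠ z) :
    Nonempty (groupVN (FreeGroup ι) ≃⋆ₐ[ℂ] groupVN (FreeGroup (Fin 3))) := by
  classical
  obtain ⟨θ, hθ⟩ := exists_basis hzx hvx hvz bas_lamU tr_faithful tr_nrm.complete
  exact iso_of_bas hθ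

end Vale.Agent.P086
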