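import Vale.Agent.P085.Tr
import Mathlib.Analysis.SpecialFunctions.Complex.LogBounds
import Mathlib.Analysis.SpecialFunctions.ContinuousFunctionalCalculus.ExpLog.Basic
import Mathlib.Analysis.CStarAlgebra.ContinuousFunctionalCalculus.Unitary

/-! Approximate inverses of sums of free unitaries, and approximate logarithms. -/

namespace Vale.Agent.P086

open Vale.Agent.P085 Finset
open scoped ComplexConjugate

variable {A : Type*} [CStarAlgebra A] (T : Tr A)

lemma tree {V : Type*} [AddCommGroup V] [Module ℝ V] (J : V →ₗ[ℝ] A) {μ : ℕ} (hμ : 0 < μ)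
    (u u' : Fin (μ + 1) → V →ₗ[ℝ] V) (huu : ∀ j x, u j (u' j x) = x)
    (hJ : ∀ j x y, T.τ (star (J (u j x)) * J (u j y)) = T.τ (star (J x) * J y))
    (P : Fin (μ + 1) → Submodule ℝ V) (β : V) (h0 : ∀ j, ∀ x ∈ P j, T.τ (star (J β) * J x) = 0)
    (h1 : ∀ i j, i ≠ j → ∀ x ∈ P i, ∀ y ∈ P j, T.τ (star (J x) * J y) = 0)
    (h2 : ∀ i j, i ≠ j → ∀ x ∈ P i, u j x ∈ P j ∧ u' j x ∈ P j) (h3 : ∀ j, u' j β ∈ P j)
    {N : ℕ} (hN : 0 < N) : ∃ c, T.n2 (J c) ≤ N / √(μ + 1) * T.n2 (J β) ∧
      T.n2 (J (∑ j, u j c - β)) ^ 2 ≤ T.n2 (J β) ^ 2 / N := by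
  set B : V → V → ℂ := fun x y => T.τ (star (J x) * J y) with hB
  have hJ' : ∀ j x y, B (u' j x) (u' j y) = B x y := fun j x y => by
    simp only [hB, ← hJ j (u' j x), huu]
  have hs : ∀ (r : ℝ) x y, B (r • x) y = r * B x y ∧ B x (r • y) = r * B x y := fun r x y => by
    simp [hB, ← Complex.coe_smul]
  have hsum : ∀ {κ : Type} (s : Finset κ) (f g : κ → V),
      B (∑ i ∈ s, f i) (∑ i ∈ s, g i) = ∑ i ∈ s, ∑ j ∈ s, B (f i) (g j) := fun s f g => by
    simp only [hB, map_sum, star_sum, sum_mul_sum]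
  have hP : ∀ (s : Finset (Fin (μ + 1))) (f g : Fin (μ + 1) → V) (a : ℂ), (∀ i, f i ∈ P i) →
      (∀ i, g i ∈ P i) → (∀ i, B (f i) (g i) = a) →
      B (∑ i ∈ s, f i) (∑ i ∈ s, g i) = s.card * a := fun s f g a hf hg h => by
    rw [hsum, sum_congr rfl fun i hi => sum_eq_single_of_mem i hi fun j _ hj =>
      h1 i j hj.symm _ (hf i) _ (hg j), sum_congr rfl fun i _ => h i]
    simp
  let pp : (Fin (μ + 1) → V) → Fin (μ + 1) → V := fun f j => u j (∑ i ∈ univ.erase j, f i)
  obtain ⟨n, n0, nS⟩ : ∃ n : ℕ → Fin (μ + 1) → V, (∀ j, n 0 j = u' j β) ∧ ∀ k j,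
      n (k + 1) j = (-(μ : ℝ)⁻¹) • u' j (∑ i ∈ univ.erase j, pp (n k) i) :=
    ⟨fun k => Nat.rec (fun j => u' j β)
      (fun _ f j => (-(μ : ℝ)⁻¹) • u' j (∑ i ∈ univ.erase j, pp f i)) k, fun _ => rfl,
      fun _ _ => rfl⟩
  have hpp : ∀ f, (∀ i, f i ∈ P i) → ∀ j, pp f j ∈ P j := fun f hf j => by
    simp only [pp, map_sum]
    exact sum_mem fun i hi => (h2 i j (ne_of_mem_erase hi) _ (hf i)).1
  have hn : ∀ k j, n k j ∈ P j := fun k => by
    induction k with
    | zero => simpa only [n0] using h3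
    | succ k ih =>
      intro j
      rw [nS, map_sum]
      exact Submodule.smul_mem _ _
        (sum_mem fun i hi => (h2 i j (ne_of_mem_erase hi) _ (hpp _ ih i)).2)
  have hμ' : (μ : ℂ) ≠ 0 := by exact_mod_cast hμ.ne'
  have h4 : ∀ k j, B β (∑ i ∈ univ.erase j, pp (n k) i) = 0 := fun k j => by
    simp only [hB, map_sum, mul_sum]
    exact sum_eq_zero fun i _ => h0 i _ (hpp _ (hn k) i)
  have h5 : ∀ k l a, (∀ j, B (n k j) (n l j) = a) → ∀ j, B (pp (n k) j) (pp (n l) j) = μ * a :=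
    fun k l a h j => (hJ ..).trans ((hP (univ.erase j) _ _ a (hn k) (hn l) h).trans (by simp))
  have h6 : ∀ k l j, B (n k j) (n l j) = if k = l then B β β else 0 := fun k => by
    induction k with
    | zero =>
      rintro (_ | l) j
      · rw [n0, hJ', if_pos rfl]
      · rw [n0, nS, (hs ..).2, hJ', h4]; simp
    | succ k ih =>
      rintro (_ | l) j
      · have := congrArg conj (h4 k j)
        simp only [hB, ← T.map_star, star_mul, star_star, map_zero] at this
        rw [n0, nS, (hs ..).1, hJ', hB]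
        simp only [this]
        simp
      · rw [nS, nS, (hs ..).1, (hs ..).2, hJ',
          hP _ _ _ _ (hpp _ (hn k)) (hpp _ (hn l)) (h5 k l _ (ih l))]
        simp only [card_erase_of_mem (mem_univ _), card_univ, Fintype.card_fin,
          Nat.add_sub_cancel, Nat.add_right_cancel_iff]
        push_cast
        field_simp
  have h7 : ∀ M, ∑ j, u j (∑ k ∈ range (M + 1), ∑ i, n k i) =
      ((μ + 1 : ℝ)) • β + ∑ j, pp (n M) j := fun M => by
    have e1 : ∀ k, ∑ j, u j (∑ i, n k i) = ∑ j, u j (n k j) + ∑ j, pp (n k) j := fun k => by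
      rw [← sum_add_distrib]
      exact sum_congr rfl fun j _ => by rw [← map_add, add_sum_erase _ _ (mem_univ _)]
    induction M with
    | zero =>
      simp only [zero_add, sum_range_one, e1]
      simp [n0, huu, ← Nat.cast_smul_eq_nsmul ℝ]
    | succ M ih =>
      simp only [sum_range_succ _ (M + 1), map_add, sum_add_distrib, ih, e1]
      have : ∑ j, u j (n (M + 1) j) = -∑ j, pp (n M) j := by
        have : (μ : ℝ) ≠ 0 := by exact_mod_cast hμ.ne'
        simp only [nS, map_smul, huu, ← smul_sum, sum_erase_eq_sub (mem_univ _), sum_sub_distrib]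
        simp [← Nat.cast_smul_eq_nsmul ℝ, add_smul, smul_smul, this]
      rw [this]; abel
  have hb := T.n2_nonneg (J β)
  have h8 : ∀ k, T.n2 (J (∑ i, n k i)) = √(μ + 1) * T.n2 (J β) := fun k => by
    rw [← sq_eq_sq₀ (T.n2_nonneg _) (by positivity), mul_pow, Real.sq_sqrt (by positivity),
      T.n2_sq, T.n2_sq]
    have := congrArg Complex.re (hP univ _ _ _ (hn k) (hn k) (h6 k k))
    simpa [hB] using this
  have hN' : (0 : ℝ) < N := by exact_mod_cast hN
  refine ⟨((μ + 1 : ℝ) * N)⁻¹ • ∑ M ∈ range N, ∑ k ∈ range (M + 1), ∑ i, n k i, ?_, ?_⟩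
  · rw [map_smul, ← Complex.coe_smul, T.n2_smul, Complex.norm_real,
      Real.norm_of_nonneg (by positivity), map_sum]
    have : T.n2 (∑ M ∈ range N, J (∑ k ∈ range (M + 1), ∑ i, n k i)) ≤
        N * (N * (√(μ + 1) * T.n2 (J β))) := by
      refine (T.n2_sum_le _ _).trans ((sum_le_card_nsmul _ _ (N * (√(μ + 1) * T.n2 (J β)))
        fun M hM => ?_).trans_eq (by simp))
      rw [map_sum]
      refine (T.n2_sum_le _ _).trans ?_
      simp only [h8, sum_const, card_range, nsmul_eq_mul]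
      gcongr
      exact mem_range.mp hM
    refine (mul_le_mul_of_nonneg_left this (by positivity)).trans_eq ?_
    have := Real.mul_self_sqrt (show (0 : ℝ) ≤ μ + 1 by positivity)
    have : 0 < √(μ + 1 : ℝ) := by positivity
    field_simp
    grind
  · have e1 : ∑ j, u j (((μ + 1 : ℝ) * N)⁻¹ • ∑ M ∈ range N, ∑ k ∈ range (M + 1), ∑ i, n k i) - β =
        ((μ + 1 : ℝ) * N)⁻¹ • ∑ M ∈ range N, ∑ j, pp (n M) j := by
      simp only [map_smul, ← smul_sum, map_sum (u _) _ (range N)]
      rw [sum_comm]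
      simp only [h7, sum_add_distrib, sum_const, card_range, smul_add, ← Nat.cast_smul_eq_nsmul ℝ,
        smul_smul]
      rw [show ((μ + 1 : ℝ) * N)⁻¹ * (N * (μ + 1)) = 1 by field_simp, one_smul]
      abel
    have e2 := hsum (range N) (fun M => ∑ j, pp (n M) j) fun M => ∑ j, pp (n M) j
    simp only [fun k l => hP univ _ _ _ (hpp _ (hn k)) (hpp _ (hn l)) (h5 k l _ (h6 k l)),
      mul_ite, mul_zero, sum_ite_eq] at e2
    rw [sum_congr rfl fun i hi => if_pos hi] at e2
    have e3 := congrArg Complex.re e2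
    simp only [hB, ← T.n2_sq, T.n2_sq' (J β)] at e3
    norm_cast at e3
    rw [e1, map_smul, ← Complex.coe_smul, T.n2_smul, Complex.norm_real,
      Real.norm_of_nonneg (by positivity), mul_pow, e3]
    simp only [sum_const, card_range, card_univ, Fintype.card_fin, nsmul_eq_mul]
    push_cast
    field_simp
    nlinarith [sq_nonneg (T.n2 (J β))]

open Complex in
lemma exists_log {ε : ℝ} (hε : 0 < ε) : ∃ (n : ℕ) (a : ℕ → ℝ), ∀ Y ∈ unitary A,
    (∀ k, 0 < k → T.τ (Y ^ k) = 0) →
      T.n2 (NormedSpace.exp (∑ j ∈ range n, a j • (star Y ^ j - Y ^ j)) - star Y) ^ 2 ≤ ε := by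
  wlog hε1 : ε < 1 generalizing ε
  · obtain ⟨n, a, h⟩ := this one_half_pos one_half_lt_one
    exact ⟨n, a, fun Y hY h' => (h Y hY h').trans (by linarith)⟩
  let +nondep : NormedAlgebra ℚ A := .restrictScalars ℚ ℂ A
  set r := 1 - ε / 6 with hr
  have hr0 : 0 < r := by linarith
  have hr1 : r < 1 := by linarith
  obtain ⟨M, hM⟩ := exists_pow_lt_of_lt_one (by positivity : 0 < ε / 6) hr1
  have hM' : r ^ (M + 1) ≤ ε / 6 := by rw [pow_succ]; nlinarith [pow_pos hr0 M]
  obtain ⟨n, hn⟩ := exists_pow_lt_of_lt_one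
    (by positivity : 0 < ε / 6 * (ε / 6 / (8 * (M + 1)))) hr1
  refine ⟨n + 1, fun j => (-1) ^ (j + 1) * r ^ j / j, fun Y hY hτ => ?_⟩
  have : IsStarNormal Y := (Unitary.coe_isStarNormal ⟨Y, hY⟩ :)
  set F : ℂ → ℂ := fun z => logTaylor (n + 1) (r * star z) - logTaylor (n + 1) (r * z) with hF
  have hFc : Continuous F := by unfold F logTaylor; fun_prop
  set B := ∑ j ∈ range (n + 1), ((-1) ^ (j + 1) * r ^ j / j : ℝ) • (star Y ^ j - Y ^ j) with hB
  have e1 : B = cfc F Y := by
    have : F = ∑ j ∈ range (n + 1), fun z : ℂ =>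
        ((-1) ^ (j + 1) * r ^ j / j : ℝ) • (star z ^ j - z ^ j) := by
      ext z
      simp only [hF, logTaylor, ← sum_sub_distrib, Finset.sum_apply, real_smul, mul_pow]
      exact sum_congr rfl fun j _ => by push_cast; ring
    rw [this, cfc_sum _ _ _ fun j _ => by fun_prop]
    refine sum_congr rfl fun j _ => ?_
    rw [cfc_smul .., cfc_sub .., cfc_pow .., cfc_star_id Y, cfc_pow_id ..]
  have e2 : NormedSpace.exp B ∈ unitary A := NormedSpace.exp_mem_unitary_of_mem_skewAdjoint (by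
    rw [skewAdjoint.mem_iff, hB, star_sum, ← sum_neg_distrib]
    exact sum_congr rfl fun j _ => by simp [← smul_neg])
  have e3 : ‖(1 + r • Y) * NormedSpace.exp B - (1 + r • star Y)‖ ≤ ε / 6 / (M + 1) := by
    have : (1 + r • Y) * NormedSpace.exp B - (1 + r • star Y) =
        cfc (fun z : ℂ => (1 + r • z) * exp (F z) - (1 + r • star z)) Y := by
      rw [cfc_sub .., cfc_mul .., cfc_const_add .., cfc_const_add .., cfc_smul .., cfc_smul ..,
        cfc_star_id Y, cfc_id' .., map_one, cfc_comp' exp F Y, e1,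
        CFC.complex_exp_eq_normedSpace_exp]
    rw [this]
    refine norm_cfc_le (by positivity) fun z hz => ?_
    have f1 : ∀ z : ℂ, ‖z‖ = 1 → exp (log (1 + r * z)) = 1 + r * z ∧
        ‖log (1 + r * z) - logTaylor (n + 1) (r * z)‖ ≤ ε / 6 / (8 * (M + 1)) := fun z hz => by
      have g1 : ‖(r : ℂ) * z‖ = r := by rw [norm_mul, hz, mul_one, norm_real, Real.norm_of_nonneg hr0.le]
      refine ⟨exp_log (slitPlane_ne_zero (mem_slitPlane_of_norm_lt_one (g1.trans_lt hr1))),
        (norm_log_sub_logTaylor_le n (g1.trans_lt hr1)).trans ?_⟩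
      rw [g1, show 1 - r = ε / 6 by rw [hr]; ring]
      refine (div_le_self (by positivity) (by simp)).trans ?_
      rw [mul_inv_le_iff₀ (by positivity), pow_succ]
      nlinarith [pow_pos hr0 n]
    have hz1 := spectrum.norm_eq_one_of_unitary hY hz
    obtain ⟨f2, f3⟩ := f1 z hz1
    obtain ⟨f4, f5⟩ := f1 (star z) (by rwa [norm_star])
    have f6 := norm_sub_le_of_le f3 f5
    have f7 : ε / 6 / (8 * (M + 1)) ≤ 1 / 2 := by
      rw [div_le_iff₀ (by positivity)]; nlinarith [M.cast_nonneg (α := ℝ)]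
    have f8 := norm_exp_sub_one_le (f6.trans (by linarith))
    have f9 : ‖1 + r * star z‖ ≤ 2 := (norm_add_le _ _).trans (by
      rw [norm_mul, norm_star, hz1, norm_real, Real.norm_of_nonneg hr0.le]; simp; linarith)
    rw [real_smul, real_smul, show (1 + r * z) * exp (F z) - (1 + r * star z) = (1 + r * star z) *
      (exp (log (1 + r * z) - logTaylor (n + 1) (r * z) - (log (1 + r * star z) -
        logTaylor (n + 1) (r * star z))) - 1) by
        rw [mul_sub, mul_one]
        conv_lhs => rw [← f2, ← exp_add]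
        conv_rhs => enter [1, 1]; rw [← f4]
        rw [← exp_add, hF]
        ring_nf]
    refine (norm_mul_le_of_le f9 (f8.trans (mul_le_mul_of_nonneg_left f6 two_pos.le))).trans_eq ?_
    field_simp
    ring
  set E := NormedSpace.exp B
  set x := (-r) • Y with hx
  have hx1 : ∀ k, ‖x ^ k‖ ≤ r ^ k := fun k => by
    rw [hx, smul_pow, norm_smul, norm_pow, norm_neg, Real.norm_of_nonneg hr0.le]
    exact mul_le_of_le_one_right (by positivity) (norm_unitary_le (pow_mem hY k))
  set S := ∑ k ∈ range (M + 1), x ^ k with hS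
  have e4 : ‖S‖ ≤ M + 1 := (norm_sum_le_of_le _ fun k _ =>
    (hx1 k).trans (pow_le_one₀ hr0.le hr1.le)).trans_eq (by simp)
  have e5 : T.τ (Y * S) = 0 := by
    simp only [hS, hx, mul_sum, map_sum, smul_pow, mul_smul_comm, ← pow_succ', ← Complex.coe_smul,
      map_smul, hτ _ (Nat.succ_pos _), smul_zero, sum_const_zero]
  have e6 : T.τ S = 1 := by
    simp only [hS, sum_range_succ', hx, map_add, map_sum, smul_pow, ← Complex.coe_smul,
      map_smul, hτ _ (Nat.succ_pos _), smul_zero, sum_const_zero]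
    simp [T.one]
  have e7 : Y * E = Y * S + r • (Y * S * star Y) +
      Y * (S * ((1 + r • Y) * E - (1 + r • star Y))) + Y * (x ^ (M + 1) * E) := by
    have := geom_sum_mul_neg x (M + 1)
    rw [← hS, hx, neg_smul, sub_neg_eq_add, ← neg_smul, ← hx] at this
    rw [mul_sub, ← mul_assoc S, this]
    simp only [mul_sub, sub_mul, mul_add, one_mul, mul_one, mul_smul_comm, mul_assoc]
    abel
  have e8 := (T.norm_τ_le _).trans (norm_mul_le_of_le (norm_unitary_le hY)
    (norm_mul_le_of_le e4 e3))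
  have e9 := (T.norm_τ_le _).trans (norm_mul_le_of_le (norm_unitary_le hY)
    (norm_mul_le_of_le (hx1 (M + 1)) (norm_unitary_le e2)))
  rw [T.n2_sub_rev, T.n2_sub_sq, star_star, T.n2_star, ← mul_one Y, T.n2_unitary_mul hY,
    ← mul_one E, T.n2_unitary_mul e2, mul_one, mul_one, T.n2_one, e7, map_add, map_add, map_add, e5,
    ← Complex.coe_smul, map_smul, T.comm _ (star Y), ← mul_assoc, hY.1, one_mul, e6]
  rw [mul_div_cancel₀ _ (by positivity)] at e8
  simp only [add_re, zero_re, smul_eq_mul, mul_one, ofReal_re]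
  linarith [(abs_le.mp ((abs_re_le_norm _).trans e8)).1, (abs_le.mp ((abs_re_le_norm _).trans e9)).1]

end Vale.Agent.P086
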