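import Vale.Agent.P086.FreeDer
import Vale.Agent.P086.Tree

/-! Moving one free generator a little, so as to capture another one. -/

namespace Vale.Agent.P086

open Vale.Agent.P085 Finset Filter
open MonoidAlgebra (supported supported_eq_span_single mem_supported')
open FreeGroup (lift lift_apply_of)

variable {A : Type*} [CStarAlgebra A] {T : Tr A}

section

variable {G : Type*} [Group G]

lemma supp_ind {S : Set G} {p : RG G → Prop} {f : RG G} (hf : f ∈ supported ℝ ℝ S)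
    (h1 : ∀ g ∈ S, p (gp g)) (h0 : p 0) (h2 : ∀ f g, p f → p g → p (f + g))
    (h3 : ∀ (r : ℝ) f, p f → p (r • f)) : p f := by
  rw [supported_eq_span_single] at hf
  induction hf using Submodule.span_induction with
  | mem _ h => obtain ⟨g, hg, rfl⟩ := h; exact h1 g hg
  | zero => exact h0
  | add f g _ _ hf hg => exact h2 f g hf hg
  | smul r f _ hf => exact h3 r f hf

lemma gp_mem {S : Set G} {g : G} (h : g ∈ S) : gp g ∈ supported ℝ ℝ S := by
  rw [supported_eq_span_single]; exact Submodule.subset_span ⟨g, h, rfl⟩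

lemma IsTr.orth {θ : G →* unitary A} (h : IsTr T θ) {S S' : Set G} {f f' : RG G}
    (hf : f ∈ supported ℝ ℝ S) (hf' : f' ∈ supported ℝ ℝ S') (hS : ∀ g ∈ S, g ∉ S') :
    T.τ (star (pi θ f) * pi θ f') = 0 := by
  refine supp_ind (p := fun f => T.τ (star (pi θ f) * pi θ f') = 0) hf (fun g hg => ?_) (by simp)
    (fun a b ha hb => by simp [add_mul, ha, hb]) fun r a ha => by simp [← Complex.coe_smul, ha]
  refine supp_ind (p := fun f => T.τ (star (pi θ (gp g)) * pi θ f) = 0) hf' (fun g' hg' => ?_)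
    (by simp) (fun a b ha hb => by rw [map_add, mul_add, map_add, ha, hb, add_zero])
    fun r a ha => by rw [map_smul, mul_smul_comm, ← Complex.coe_smul, map_smul, ha, smul_zero]
  rw [← pi_st, st_gp, ← map_mul, ← gp_mul, pi_gp]
  exact h _ fun h' => hS g hg (inv_mul_eq_one.mp h' ▸ hg')

lemma mul_mem_supported {S S' : Set G} {a : G} (h : ∀ g ∈ S, a * g ∈ S') {f : RG G}
    (hf : f ∈ supported ℝ ℝ S) : gp a * f ∈ supported ℝ ℝ S' :=
  supp_ind (p := fun f => gp a * f ∈ supported ℝ ℝ S') hf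
    (fun g hg => gp_mul a g ▸ gp_mem (h g hg)) (by simp)
    (fun f g hf hg => mul_add (gp a) f g ▸ add_mem hf hg)
    fun r f hf => mul_smul_comm r (gp a) f ▸ Submodule.smul_mem _ r hf

/-- Linear combinations of conjugates. -/
noncomputable def cj (β : RG G) : RG G →ₗ[ℝ] RG G :=
  (MonoidAlgebra.basis G ℝ).constr ℝ fun g => gp g * β * gp g⁻¹

lemma cj_gp (β : RG G) (g : G) : cj β (gp g) = gp g * β * gp g⁻¹ :=
  (MonoidAlgebra.basis G ℝ).constr_basis ℝ _ g

lemma cj_one (β : RG G) : cj β 1 = β := by rw [← gp_one, cj_gp, inv_one, gp_one, mul_one, one_mul]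

lemma cj_mul (β : RG G) (a : G) (c : RG G) : cj β (gp a * c) = gp a * cj β c * gp a⁻¹ := by
  induction c using rg_ind with
  | h1 g => rw [← gp_mul, cj_gp, cj_gp, mul_inv_rev, gp_mul, gp_mul]; simp only [mul_assoc]
  | h2 f g hf hg => simp only [mul_add, add_mul, map_add, hf, hg]
  | h3 r f hf => simp only [mul_smul_comm, smul_mul_assoc, map_smul, hf]

lemma st_cj {β : RG G} (hβ : st β = -β) (c : RG G) : st (cj β c) = -cj β c := by
  induction c using rg_ind with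
  | h1 g => rw [cj_gp, st_mul, st_mul, st_gp, st_gp, inv_inv, hβ, neg_mul, mul_neg, mul_assoc]
  | h2 f g hf hg => simp only [map_add, hf, hg, neg_add]
  | h3 r f hf => simp only [map_smul, hf, smul_neg]

lemma cj_mem {S S' S'' : Set G} {β c : RG G} (hβ : β ∈ supported ℝ ℝ S')
    (hc : c ∈ supported ℝ ℝ S) (h : ∀ a ∈ S, ∀ g ∈ S', a * g * a⁻¹ ∈ S'') :
    cj β c ∈ supported ℝ ℝ S'' :=
  supp_ind (p := fun c => cj β c ∈ supported ℝ ℝ S'') hc
    (fun g hg => cj_gp β g ▸ conj_mem (h g hg) hβ) (by simp)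
    (fun f g hf hg => map_add (cj β) f g ▸ add_mem hf hg)
    fun r f hf => map_smul (cj β) r f ▸ Submodule.smul_mem _ r hf

end

/-- A parabolic transformation. -/
def mob : Equiv.Perm ℚ := (Equiv.inv ℚ).trans ((Equiv.addRight 3).trans (Equiv.inv ℚ))

lemma mob_small {t : ℚ} (ht : 1 < |t|) : |mob t| < 1 / 2 ∧ |mob⁻¹ t| < 1 / 2 := by
  have h := abs_lt.mp ((abs_inv t).trans_lt (inv_lt_one_of_one_lt₀ ht))
  have : ∀ a : ℚ, 2 < |a| → |a⁻¹| < 1 / 2 := fun a ha => by
    rw [abs_inv, one_div]; exact inv_strictAnti₀ two_pos ha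
  exact ⟨this (t⁻¹ + 3) (lt_abs.mpr (.inl (by linarith))),
    this (t⁻¹ + -3) (lt_abs.mpr (.inr (by linarith)))⟩

/-- Shifts over the base point. -/
def sh : Multiplicative ℤ →* Equiv.Perm (ℚ × ℤ) where
  toFun k := Equiv.prodShear (Equiv.refl _) fun t => Equiv.addRight (if t = -2 then k.toAdd else 0)
  map_one' := by ext <;> simp
  map_mul' a b := by ext <;> simp; split_ifs <;> ring

variable {ι : Type*} [DecidableEq ι] (x z v s : ι)

/-- Action on the line. -/
def ro : FreeGroup ι →* Equiv.Perm ℚ :=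
  lift fun i => if i = x then Equiv.addRight 2 else if i = z then mob else 1

/-- Action on a bundle over the line. -/
def ro' : FreeGroup ι →* Equiv.Perm (ℚ × ℤ) :=
  lift fun i => if i = s then sh (.ofAdd 1) else (ro x z (.of i)).prodCongr 1

/-- Free elements. -/
def gg (j : ℕ) : FreeGroup ι := .of x ^ j * .of z * (.of x ^ j)⁻¹

/-- Initial segments of the long word. -/
def HH : ℕ → FreeGroup ι
  | 0 => gg x z 0
  | j + 1 => HH j * .of v * ((gg x z j)⁻¹ * gg x z (j + 1))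

variable {x z v s}

lemma ro'_fst (hx : s ≠ x) (hz : s ≠ z) (g : FreeGroup ι) (p : ℚ × ℤ) :
    (ro' x z s g p).1 = ro x z g p.1 := by
  induction g using FreeGroup.induction_on generalizing p with
  | C1 => simp
  | of i =>
    rw [ro', lift_apply_of]
    split_ifs with h
    · simp [h, ro, hx, hz, sh]
    · simp
  | inv_of i ih => simpa [Equiv.eq_symm_apply] using (ih ((ro' x z s (.of i))⁻¹ p)).symm
  | mul a b ha hb => simp [ha, hb]

lemma conj_inj (hx : s ≠ x) (hz : s ≠ z) {a b : FreeGroup ι} {k l : ℤ} (hk : k ≠ 0)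
    (h : a * .of s ^ k * a⁻¹ = b * .of s ^ l * b⁻¹) : ro x z a (-2) = ro x z b (-2) := by
  have e : ∀ (k : ℤ) p, ro' x z s (.of s ^ k) p = (p.1, p.2 + if p.1 = -2 then k else 0) :=
    fun k p => by
      rw [map_zpow, ro', lift_apply_of, if_pos rfl, ← map_zpow]
      simp [sh, ← ofAdd_zsmul]
  by_contra h0
  have h1 := congr(ro' x z s $h (ro' x z s a (-2, 0)))
  have h2 : ((ro' x z s b)⁻¹ (ro' x z s a (-2, 0))).1 ≠ -2 := by
    rw [← map_inv, ro'_fst hx hz, ro'_fst hx hz, map_inv, Ne, Equiv.Perm.inv_eq_iff_eq]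
    exact h0
  simp only [map_mul, map_inv, Equiv.Perm.mul_apply, e, if_neg h2] at h1
  simp [hk] at h1

lemma ro_gg (hz : z ≠ x) (j : ℕ) {t : ℚ} (ht : 1 < |t - 2 * j|) :
    |ro x z (gg x z j) t - 2 * j| < 1 / 2 ∧ |ro x z (gg x z j)⁻¹ t - 2 * j| < 1 / 2 := by
  simpa [gg, ro, hz, mul_comm, ← sub_eq_add_neg] using mob_small ht

lemma ro_HH (hx : v ≠ x) (hz : v ≠ z) (j : ℕ) : ro x z (HH x z v j) = ro x z (gg x z j) := by
  induction j with
  | zero => rfl
  | succ j ih => simp [HH, ih, show ro x z (.of v) = 1 by simp [ro, hx, hz]]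

omit [DecidableEq ι] in
lemma HH_mem (j : ℕ) : HH x z v j ∈ Subgroup.closure {.of x, .of z, .of v} := by
  have : ∀ j, gg x z j ∈ Subgroup.closure {.of x, .of z, .of v} := fun j =>
    mul_mem (mul_mem (pow_mem (Subgroup.subset_closure (by simp)) _)
      (Subgroup.subset_closure (by simp))) (inv_mem (pow_mem (Subgroup.subset_closure (by simp)) _))
  induction j with
  | zero => exact this 0
  | succ j ih =>
    exact mul_mem (mul_mem ih (Subgroup.subset_closure (by simp)))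
      (mul_mem (inv_mem (this _)) (this _))

lemma DD_HH (hx : v ≠ x) (hz : v ≠ z) (b : RG (FreeGroup ι)) (m : ℕ) :
    DD (Pi.single v b) (gp (HH x z v m)) =
      (∑ j ∈ range m, gp (HH x z v j) * b * gp (HH x z v j)⁻¹) * gp (HH x z v m) := by
  have h1 : ∀ i, v ≠ i → ∀ n : ℤ, DD (Pi.single v b) (gp (.of i ^ n)) = 0 := fun i hi =>
    DD_zpow _ (by rw [DD_of, Pi.single_eq_of_ne' hi, zero_mul])
  have h2 : ∀ (j : ℕ) (n : ℤ), DD (Pi.single v b) (gp (gg x z j ^ n)) = 0 := fun j => DD_zpow _ (by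
    have e1 := h1 x hx j
    have e2 := h1 x hx (-j)
    have e3 := h1 z hz 1
    rw [zpow_natCast] at e1
    rw [zpow_neg, zpow_natCast] at e2
    rw [zpow_one] at e3
    simp only [gg, gp_mul, DD_mul, e1, e2, e3, zero_mul, mul_zero, add_zero])
  induction m with
  | zero => simpa [HH] using h2 0 1
  | succ m ih =>
    have e1 := h2 m (-1)
    have e2 := h2 (m + 1) 1
    rw [zpow_neg_one] at e1
    rw [zpow_one] at e2
    simp only [HH, gp_mul, DD_mul, ih, e1, e2, DD_of, Pi.single_eq_same, sum_range_succ, add_mul,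
      zero_mul, mul_zero, add_zero, mul_assoc, ← mul_assoc (gp (HH x z v m)⁻¹), gp_inv_mul, one_mul]

lemma Bas.shear {θ : FreeGroup ι →* unitary A} (hθ : Bas T θ) {w : FreeGroup ι}
    (hw : ∀ u, lift (Function.update FreeGroup.of s u) w = w) :
    Bas T (θ.comp (lift (Function.update FreeGroup.of s (w * .of s)))) := by
  have h1 : ∀ u u', u * u' = 1 → lift (Function.update FreeGroup.of s (u' * .of s)) u = u → ∀ g,
      lift (Function.update FreeGroup.of s (u' * .of s))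
        (lift (Function.update FreeGroup.of s (u * .of s)) g) = g := fun u u' h h' g => by
    refine DFunLike.congr_fun (f := (lift _).comp (lift _)) (g := MonoidHom.id _) ?_ g
    ext i
    rcases eq_or_ne i s with rfl | hi
    · simp [h', ← mul_assoc, h]
    · simp [hi]
  refine ⟨fun g hg => hθ.tr _ fun h => hg ?_, fun N hN h => hθ.gen N hN fun g => ?_⟩
  · rw [← h1 w w⁻¹ (by simp) (hw _) g, h, map_one]
  · rw [← h1 w⁻¹ w (by simp) (by rw [map_inv, hw]) g]
    exact h _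

lemma exists_c {θ₀ : FreeGroup ι →* unitary A} (h0 : IsTr T θ₀) (hzx : z ≠ x) (hvx : v ≠ x)
    (hvz : v ≠ z) (hsx : s ≠ x) (hsz : s ≠ z) {β : RG (FreeGroup ι)}
    (hβ2 : β ∈ supported ℝ ℝ {g | ∃ k : ℤ, k ≠ 0 ∧ g = .of s ^ k}) {μ N : ℕ} (hμ : 0 < μ)
    (hN : 0 < N) : ∃ c, T.n2 (pi θ₀ (cj β c)) ≤ N / √(μ + 1) * T.n2 (pi θ₀ β) ∧
      T.n2 (pi θ₀ (cj β (∑ j : Fin (μ + 1), LinearMap.mulLeft ℝ (gp (HH x z v j)) c - 1))) ^ 2 ≤
        T.n2 (pi θ₀ β) ^ 2 / N := by
  have orth : ∀ (S S' : Set ℚ), (∀ t ∈ S, t ∉ S') → ∀ f ∈ supported ℝ ℝ {g | ro x z g (-2) ∈ S},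
      ∀ f' ∈ supported ℝ ℝ {g | ro x z g (-2) ∈ S'},
        T.τ (star (pi θ₀ (cj β f)) * pi θ₀ (cj β f')) = 0 := fun S S' h f hf f' hf' => by
    refine h0.orth (cj_mem hβ2 hf fun a ha g hg => ⟨a, ha, g, hg, rfl⟩ :
      _ ∈ supported ℝ ℝ {g | ∃ a ∈ _, ∃ b ∈ _, g = a * b * a⁻¹})
      (cj_mem hβ2 hf' fun a ha g hg => ⟨a, ha, g, hg, rfl⟩ :
      _ ∈ supported ℝ ℝ {g | ∃ a ∈ _, ∃ b ∈ _, g = a * b * a⁻¹}) ?_
    rintro _ ⟨a, ha, _, ⟨k, hk, rfl⟩, rfl⟩ ⟨b, hb, _, ⟨l, -, rfl⟩, h'⟩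
    exact h _ ha (conj_inj hsx hsz hk h' ▸ hb)
  have far : ∀ i j : Fin (μ + 1), i ≠ j → ∀ t : ℚ, |t - 2 * (i : ℕ)| < 1 / 2 →
      1 < |t - 2 * (j : ℕ)| := fun i j hij t ht => by
    rw [abs_lt] at ht
    rcases lt_or_gt_of_ne hij with h | h
    · have : ((i : ℕ) : ℚ) + 1 ≤ (j : ℕ) := by exact_mod_cast h
      exact lt_abs.mpr (.inr (by linarith))
    · have : ((j : ℕ) : ℚ) + 1 ≤ (i : ℕ) := by exact_mod_cast h
      exact lt_abs.mpr (.inl (by linarith))
  have far' : ∀ j : ℕ, 1 < |-2 - 2 * (j : ℚ)| := fun j =>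
    lt_abs.mpr (.inr (by linarith [j.cast_nonneg (α := ℚ)]))
  have := tree T ((pi θ₀).toLinearMap ∘ₗ cj β) hμ
    (fun j => LinearMap.mulLeft ℝ (gp (HH x z v j))) (fun j => LinearMap.mulLeft ℝ (gp (HH x z v j)⁻¹))
    (fun j f => by simp only [LinearMap.mulLeft_apply, ← mul_assoc, gp_mul_inv, one_mul])
    (fun j f g => by
      simp only [LinearMap.mulLeft_apply, LinearMap.comp_apply, AlgHom.toLinearMap_apply, cj_mul,
        map_mul, pi_gp, map_inv, star_mul, ← Unitary.star_eq_inv, Unitary.coe_star, star_star]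
      rw [mul_assoc, T.comm]
      simp only [mul_assoc, u_cancel, Unitary.coe_star_mul_self, mul_one])
    (fun j => supported ℝ ℝ {g | ro x z g (-2) ∈ {t : ℚ | |t - 2 * (j : ℕ)| < 1 / 2}}) 1
    (fun j f hf => orth {-2} _ (by rintro _ rfl h; linarith [far' j, Set.mem_ofPred.mp h]) _
      (gp_mem (by simp)) f hf)
    (fun i j hij => orth _ _ fun t ht h => by linarith [far i j hij t ht, Set.mem_ofPred.mp h])
    (fun i j hij f hf => ⟨mul_mem_supported (fun g hg => by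
      simpa [ro_HH hvx hvz] using (ro_gg hzx j (far i j hij _ hg)).1) hf,
      mul_mem_supported (fun g hg => by
        simpa [ro_HH hvx hvz] using (ro_gg hzx j (far i j hij _ hg)).2) hf⟩)
    (fun j => by
      rw [LinearMap.mulLeft_apply, mul_one]
      exact gp_mem (by simpa [ro_HH hvx hvz] using (ro_gg hzx j (far' j)).2))
    hN
  simpa only [LinearMap.comp_apply, AlgHom.toLinearMap_apply, cj_one] using this

theorem step {θ : FreeGroup ι →* unitary A} (hθ : Bas T θ) (hzx : z ≠ x) (hvx : v ≠ x)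
    (hvz : v ≠ z) (hsx : s ≠ x) (hsz : s ≠ z) (hsv : s ≠ v) {ε : ℝ} (hε : 0 < ε) :
    ∃ θ' : FreeGroup ι →* unitary A, Bas T θ' ∧ (∀ i, i ≠ v → i ≠ s → θ' (.of i) = θ (.of i)) ∧
      T.n2 (θ' (.of v) - θ (.of v)) ≤ ε ∧ ∃ w ∈ Subgroup.closure {.of x, .of z, .of v},
        T.n2 (θ' w - θ (.of s)) ≤ ε := by
  obtain ⟨n, a, ha⟩ := exists_log T (by positivity : 0 < (ε / 3) ^ 2)
  set β : RG (FreeGroup ι) := ∑ j ∈ range n, a j • (gp (.of s ^ j)⁻¹ - gp (.of s ^ j)) with hβ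
  have hβ1 : st β = -β := by
    simp only [hβ, map_sum, map_smul, map_sub, st_gp, inv_inv, ← sum_neg_distrib, ← smul_neg,
      neg_sub]
  have hβ2 : β ∈ supported ℝ ℝ {g | ∃ k : ℤ, k ≠ 0 ∧ g = .of s ^ k} :=
    sum_mem fun j _ => Submodule.smul_mem _ _ (by
      rcases eq_or_ne j 0 with rfl | hj
      · simp
      · exact sub_mem (gp_mem ⟨-j, by simpa, by simp⟩) (gp_mem ⟨j, by simpa, by simp⟩))
  obtain ⟨N, hN⟩ := exists_nat_gt (T.n2 (pi θ β) ^ 2 / (ε / 3) ^ 2)
  have hN0 : (0 : ℝ) < N := lt_of_le_of_lt (by positivity) hN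
  obtain ⟨μ, hμ⟩ := exists_nat_gt ((N * T.n2 (pi θ β) / (ε / 2)) ^ 2)
  have hw : ∀ u, lift (Function.update FreeGroup.of s u) (HH x z v (μ + 1)) = HH x z v (μ + 1) :=
    fun u => MonoidHom.eqOn_closure (g := MonoidHom.id _) (by
      rintro _ (rfl | rfl | rfl) <;> simp [hsx.symm, hsz.symm, hsv.symm]) (HH_mem _)
  have h0 := hθ.shear hw
  set θ₀ := θ.comp (lift (Function.update FreeGroup.of s (HH x z v (μ + 1) * .of s))) with hθ₀
  obtain ⟨c, hc1, hc2⟩ := exists_c h0.tr hzx hvx hvz hsx hsz hβ2 (μ := μ)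
    (Nat.cast_pos.mp (lt_of_le_of_lt (by positivity) hμ)) (N := N) (by exact_mod_cast hN0)
  rw [h0.tr.n2_eq hθ.tr β] at hc1 hc2
  obtain ⟨d, hd⟩ := exists_der (A := A) v (st_cj hβ1 c) hsv (cj_mem (S := Set.univ) hβ2
    (mem_supported'.mpr (by simp)) (by rintro a - _ ⟨k, -, rfl⟩; exact ⟨a, k, rfl⟩))
  have hD : ∀ i, i ≠ v → d.D (gp (.of i)) = 0 := fun i hi => by
    rw [hd, DD_of, Pi.single_eq_of_ne hi, zero_mul]
  have hDβ : d.D β = 0 := by
    have := DD_zpow _ (hd ▸ hD s hsv)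
    rw [← hd] at this
    simp only [hβ, map_sum, map_smul, map_sub, ← zpow_natCast, ← zpow_neg, this, sub_self,
      smul_zero, sum_const_zero]
  obtain ⟨k, h1, h2, h3⟩ := ((d.it_est h0 (g := .of v) (β := 0) (e := cj β c)
    (by rw [hd, DD_of, Pi.single_eq_same, zero_add]) (map_zero _) (by simp) (half_pos hε)).and
    ((d.it_est h0 (g := HH x z v (μ + 1)) (β := β) (e := cj β (∑ j : Fin (μ + 1),
      LinearMap.mulLeft ℝ (gp (HH x z v j)) c - 1)) (by
        rw [hd, DD_HH hvx hvz, map_sub, cj_one, add_sub_cancel, map_sum, sum_range]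
        simp only [LinearMap.mulLeft_apply, cj_mul]) hDβ hβ1 (by positivity : 0 < ε / 3)).and
      d.ev_small)).exists
  obtain ⟨h4, h5⟩ := d.iter h3 h0 k
  refine ⟨d.it θ₀ k, h4, fun i hi hi' => Subtype.ext ?_, ?_, _, inv_mem (HH_mem (μ + 1)), ?_⟩
  · simpa [-MonoidAlgebra.of_apply, hθ₀, hi', Der.it] using h5 _ (hD i hi)
  · have : N / √(μ + 1) * T.n2 (pi θ β) ≤ ε / 2 := by
      rw [div_mul_eq_mul_div, div_le_comm₀ (by positivity) (by positivity)]
      exact Real.le_sqrt_of_sq_le (by linarith)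
    simp only [map_zero, NormedSpace.exp_zero, one_mul] at h1
    rw [show θ₀ (.of v) = θ (.of v) by simp [hθ₀, hsv.symm]] at h1
    linarith
  · have e1 := ha _ (θ₀ (.of s)).2 fun k hk => by
      rw [← SubmonoidClass.coe_pow, ← map_pow]
      exact h0.tr _ (by simpa [← FreeGroup.norm_eq_zero, FreeGroup.norm_of_pow] using hk.ne')
    have e2 : pi θ₀ β = ∑ j ∈ range n, a j • (star (θ₀ (.of s) : A) ^ j - θ₀ (.of s) ^ j) := by
      simp [-MonoidAlgebra.of_apply, hβ, ← Unitary.star_eq_inv]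
    rw [← e2, ← T.n2_mul_unitary (θ₀ (HH x z v (μ + 1))).2, sub_mul] at e1
    have e3 : star (θ₀ (.of s) : A) * θ₀ (HH x z v (μ + 1)) = star (θ (.of s) : A) := by
      simp [hθ₀, hw, mul_assoc]
    have e4 := hc2.trans ((div_le_comm₀ hN0 (by positivity)).mpr hN.le)
    rw [map_inv, ← Unitary.star_eq_inv, Unitary.coe_star, ← T.n2_star, star_sub, star_star, ← e3]
    linarith [T.n2_triangle (d.it θ₀ k (HH x z v (μ + 1)) : A) (NormedSpace.exp (pi θ₀ β) *
      θ₀ (HH x z v (μ + 1))) (star (θ₀ (.of s) : A) * θ₀ (HH x z v (μ + 1))),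
      abs_le_of_sq_le_sq' e1 (by positivity), abs_le_of_sq_le_sq' e4 (by positivity)]

end Vale.Agent.P086
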